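import Mathlib

set_option linter.unusedSectionVars false

open Filter Topology Set

namespace Vale.Agent.H11.Tingley

variable {X Y : Type*} [NormedAddCommGroup X] [NormedSpace ℝ X]
  [NormedAddCommGroup Y] [NormedSpace ℝ Y]

/-- Positively homogeneous bijections that are norm preserving and isometric on the unit sphere. -/
structure SphIso (F : X ≃ Y) : Prop where
  smul : ∀ (t : ℝ) (x : X), 0 ≤ t → F (t • x) = t • F x
  norm : ∀ x, ‖F x‖ = ‖x‖
  dist1 : ∀ x y, ‖x‖ = 1 → ‖y‖ = 1 → ‖F x - F y‖ = ‖x - y‖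

namespace SphIso

variable {F : X ≃ Y}

lemma symm (h : SphIso F) : SphIso F.symm where
  smul t w ht := by
    rw [Equiv.symm_apply_eq, h.smul _ _ ht, Equiv.apply_symm_apply]
  norm w := by
    rw [← h.norm, Equiv.apply_symm_apply]
  dist1 v w hv hw := by
    have h1 : ‖F.symm v‖ = 1 := by rw [← h.norm, Equiv.apply_symm_apply, hv]
    have h2 : ‖F.symm w‖ = 1 := by rw [← h.norm, Equiv.apply_symm_apply, hw]
    have := h.dist1 _ _ h1 h2
    rw [Equiv.apply_symm_apply, Equiv.apply_symm_apply] at this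
    exact this.symm

lemma map_zero (h : SphIso F) : F 0 = 0 := by
  have := h.norm 0
  simpa using this

lemma dist (h : SphIso F) (x y : X) (hxy : ‖x‖ = ‖y‖) : ‖F x - F y‖ = ‖x - y‖ := by
  by_cases hx : ‖x‖ = 0
  · have hy : ‖y‖ = 0 := by rw [← hxy, hx]
    rw [norm_eq_zero] at hx hy
    subst hx; subst hy; simp
  · have hpos : 0 < ‖x‖ := lt_of_le_of_ne (norm_nonneg _) (Ne.symm hx)
    have e1 : x = ‖x‖ • (‖x‖⁻¹ • x) := by
      rw [smul_smul, mul_inv_cancel₀ hx, one_smul]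
    have e2 : y = ‖x‖ • (‖x‖⁻¹ • y) := by
      rw [smul_smul, mul_inv_cancel₀ hx, one_smul]
    have n1 : ‖‖x‖⁻¹ • x‖ = 1 := by
      rw [norm_smul, norm_inv, norm_norm, inv_mul_cancel₀ hx]
    have n2 : ‖‖x‖⁻¹ • y‖ = 1 := by
      rw [norm_smul, norm_inv, norm_norm, ← hxy, inv_mul_cancel₀ hx]
    have := h.dist1 _ _ n1 n2
    calc ‖F x - F y‖ = ‖F (‖x‖ • (‖x‖⁻¹ • x)) - F (‖x‖ • (‖x‖⁻¹ • y))‖ := by rw [← e1, ← e2]
      _ = ‖‖x‖ • (F (‖x‖⁻¹ • x) - F (‖x‖⁻¹ • y))‖ := by
          rw [h.smul _ _ hpos.le, h.smul _ _ hpos.le, smul_sub]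
      _ = ‖x‖ * ‖(‖x‖⁻¹ • x) - (‖x‖⁻¹ • y)‖ := by rw [norm_smul, norm_norm, this]
      _ = ‖‖x‖ • ((‖x‖⁻¹ • x) - (‖x‖⁻¹ • y))‖ := by rw [norm_smul, norm_norm]
      _ = ‖x - y‖ := by rw [smul_sub, ← e1, ← e2]

lemma lip (h : SphIso F) (x y : X) : ‖F x - F y‖ ≤ 3 * ‖x - y‖ := by
  by_cases hy : y = 0
  · subst hy
    rw [h.map_zero, sub_zero, sub_zero, h.norm]
    nlinarith [norm_nonneg x]
  · have hy' : ‖y‖ ≠ 0 := by simpa using hy
    have hypos : 0 < ‖y‖ := lt_of_le_of_ne (norm_nonneg _) (Ne.symm hy')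
    set c : ℝ := ‖x‖ / ‖y‖ with hc
    have hc0 : 0 ≤ c := by positivity
    have hn : ‖x‖ = ‖c • y‖ := by
      rw [norm_smul, Real.norm_of_nonneg hc0, hc]; field_simp
    have h1 : ‖F x - F (c • y)‖ = ‖x - c • y‖ := h.dist _ _ hn
    have h2 : ‖F (c • y) - F y‖ = |‖x‖ - ‖y‖| := by
      rw [h.smul _ _ hc0]
      have : c • F y - F y = (c - 1) • F y := by rw [sub_smul, one_smul]
      rw [this, norm_smul, h.norm, Real.norm_eq_abs, ← abs_of_pos hypos, ← abs_mul, abs_of_pos hypos]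
      congr 1
      rw [hc]; field_simp
    have h3 : ‖c • y - y‖ = |‖x‖ - ‖y‖| := by
      have : c • y - y = (c - 1) • y := by rw [sub_smul, one_smul]
      rw [this, norm_smul, Real.norm_eq_abs, ← abs_of_pos hypos, ← abs_mul, abs_of_pos hypos]
      congr 1
      rw [hc]; field_simp
    have h4 : |‖x‖ - ‖y‖| ≤ ‖x - y‖ := abs_norm_sub_norm_le x y
    have h5 : ‖x - c • y‖ ≤ ‖x - y‖ + ‖c • y - y‖ := by
      have : x - c • y = (x - y) - (c • y - y) := by abel
      rw [this]; exact norm_sub_le _ _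
    have h6 : ‖F x - F y‖ ≤ ‖F x - F (c • y)‖ + ‖F (c • y) - F y‖ := by
      have : F x - F y = (F x - F (c • y)) + (F (c • y) - F y) := by abel
      rw [this]; exact norm_add_le _ _
    linarith

lemma continuous (h : SphIso F) : Continuous F := by
  have : LipschitzWith 3 F := by
    apply LipschitzWith.of_dist_le_mul
    intro x y
    rw [dist_eq_norm, dist_eq_norm]
    exact h.lip x y
  exact this.continuous

/-- The map `x ↦ - F (-x)`. -/
def op (F : X ≃ Y) : X ≃ Y := (Equiv.neg X).trans (F.trans (Equiv.neg Y))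

@[simp] lemma op_apply (F : X ≃ Y) (x : X) : op F x = - F (-x) := rfl

lemma isSph_op (h : SphIso F) : SphIso (op F) where
  smul t x ht := by
    rw [op_apply, op_apply, ← smul_neg, h.smul _ _ ht, smul_neg]
  norm x := by rw [op_apply, norm_neg, h.norm, norm_neg]
  dist1 x y hx hy := by
    rw [op_apply, op_apply]
    have := h.dist1 (-x) (-y) (by rwa [norm_neg]) (by rwa [norm_neg])
    rw [← norm_neg]
    have e : -(-F (-x) - -F (-y)) = F (-x) - F (-y) := by abel
    rw [e, this, ← norm_neg]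
    congr 1; abel

lemma op_op (F : X ≃ Y) : op (op F) = F := by
  ext x; simp

lemma norm_add (h : SphIso F) (x y : X) (hxy : ‖x‖ = ‖y‖) : ‖F x + op F y‖ = ‖x + y‖ := by
  have := h.dist x (-y) (by rwa [norm_neg])
  rw [op_apply, ← sub_eq_add_neg, this, sub_neg_eq_add]

end SphIso

/-- equality in the triangle inequality -/
def Par (x y : X) : Prop := ‖x + y‖ = ‖x‖ + ‖y‖

lemma Par.comb {x y : X} (h : Par x y) {a b : ℝ} (ha : 0 ≤ a) (hb : 0 ≤ b) :
    ‖a • x + b • y‖ = a * ‖x‖ + b * ‖y‖ := by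
  apply le_antisymm
  · calc ‖a • x + b • y‖ ≤ ‖a • x‖ + ‖b • y‖ := norm_add_le _ _
      _ = a * ‖x‖ + b * ‖y‖ := by
        rw [norm_smul, norm_smul, Real.norm_of_nonneg ha, Real.norm_of_nonneg hb]
  · rcases le_total a b with hab | hab
    · have e : a • x + b • y = b • (x + y) - (b - a) • x := by
        rw [smul_add, sub_smul]; abel
      have h1 : ‖b • (x + y)‖ = b * (‖x‖ + ‖y‖) := by
        rw [norm_smul, Real.norm_of_nonneg hb, h]
      have h2 : ‖(b - a) • x‖ = (b - a) * ‖x‖ := by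
        rw [norm_smul, Real.norm_of_nonneg (by linarith)]
      have h3 := norm_sub_norm_le (b • (x + y)) ((b - a) • x)
      rw [e]; rw [h1, h2] at h3; linarith
    · have e : a • x + b • y = a • (x + y) - (a - b) • y := by
        rw [smul_add, sub_smul]; abel
      have h1 : ‖a • (x + y)‖ = a * (‖x‖ + ‖y‖) := by
        rw [norm_smul, Real.norm_of_nonneg ha, h]
      have h2 : ‖(a - b) • y‖ = (a - b) * ‖y‖ := by
        rw [norm_smul, Real.norm_of_nonneg (by linarith)]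
      have h3 := norm_sub_norm_le (a • (x + y)) ((a - b) • y)
      rw [e]; rw [h1, h2] at h3; linarith

lemma Par.smul {x y : X} (h : Par x y) {a b : ℝ} (ha : 0 ≤ a) (hb : 0 ≤ b) :
    Par (a • x) (b • y) := by
  unfold Par
  rw [h.comb ha hb, norm_smul, norm_smul, Real.norm_of_nonneg ha, Real.norm_of_nonneg hb]

lemma par_zero_left (y : X) : Par 0 y := by simp [Par]
lemma par_zero_right (x : X) : Par x 0 := by simp [Par]

lemma Par.of_smul {x y : X} {a b : ℝ} (ha : 0 < a) (hb : 0 < b) (h : Par (a • x) (b • y)) :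
    Par x y := by
  have := h.smul (a := a⁻¹) (b := b⁻¹) (by positivity) (by positivity)
  rwa [smul_smul, smul_smul, inv_mul_cancel₀ ha.ne', inv_mul_cancel₀ hb.ne', one_smul,
    one_smul] at this

lemma SphIso.par {F : X ≃ Y} (h : SphIso F) {x y : X} (hp : Par x y) :
    Par (F x) (SphIso.op F y) := by
  by_cases hx : x = 0
  · subst hx; rw [h.map_zero]; exact par_zero_left _
  by_cases hy : y = 0
  · subst hy; rw [h.isSph_op.map_zero]; exact par_zero_right _
  have hx' : ‖x‖ ≠ 0 := by simpa using hx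
  have hy' : ‖y‖ ≠ 0 := by simpa using hy
  have hxp : 0 < ‖x‖ := lt_of_le_of_ne (norm_nonneg _) (Ne.symm hx')
  have hyp : 0 < ‖y‖ := lt_of_le_of_ne (norm_nonneg _) (Ne.symm hy')
  -- scale `y` to have the norm of `x`
  set c : ℝ := ‖x‖ / ‖y‖ with hc
  have hc0 : 0 < c := by positivity
  have hn : ‖x‖ = ‖c • y‖ := by
    rw [norm_smul, Real.norm_of_nonneg hc0.le, hc]; field_simp
  have h1 := h.norm_add x (c • y) hn
  have h2 : Par x (c • y) := by
    have := hp.smul (a := 1) (b := c) zero_le_one hc0.le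
    rwa [one_smul] at this
  have h3 : Par (F x) (c • SphIso.op F y) := by
    unfold Par
    rw [← h.isSph_op.smul _ _ hc0.le, h1, h2, h.norm, h.isSph_op.norm]
  have h4 : Par ((1:ℝ) • F x) (c • SphIso.op F y) := by rwa [one_smul]
  exact h4.of_smul zero_lt_one hc0

lemma SphIso.par_iff {F : X ≃ Y} (h : SphIso F) {x y : X} :
    Par x y ↔ Par (F x) (SphIso.op F y) := by
  refine ⟨h.par, fun hp => ?_⟩
  have := h.symm.par hp
  have e : SphIso.op F.symm (SphIso.op F y) = y := by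
    simp
  rwa [e, Equiv.symm_apply_apply] at this

/-- The norm coincides with the linear functional `φ` near `x`. -/
def LocLin (φ : X →L[ℝ] ℝ) (x : X) : Prop := ∀ᶠ y in 𝓝 x, ‖y‖ = φ y

namespace LocLin

variable {φ ψ : X →L[ℝ] ℝ} {x e : X}

lemma self (h : LocLin φ x) : ‖x‖ = φ x := h.self_of_nhds

lemma eventually_line (h : LocLin φ x) (v : X) : ∀ᶠ t : ℝ in 𝓝 0, ‖x + t • v‖ = φ (x + t • v) := by
  have hc : Tendsto (fun t : ℝ => x + t • v) (𝓝 0) (𝓝 x) := by
    have : Continuous (fun t : ℝ => x + t • v) := by fun_prop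
    have h0 := this.tendsto 0
    simpa using h0
  exact hc.eventually h

lemma exists_pos (h : LocLin φ x) (v : X) :
    ∃ t : ℝ, 0 < t ∧ t < 1 ∧ ‖x + t • v‖ = φ (x + t • v) := by
  have h1 := h.eventually_line v
  have h2 : ∀ᶠ t : ℝ in 𝓝[>] 0, ‖x + t • v‖ = φ (x + t • v) := h1.filter_mono nhdsWithin_le_nhds
  have h3 : ∀ᶠ t : ℝ in 𝓝[>] 0, t ∈ Ioo (0:ℝ) 1 := Ioo_mem_nhdsGT zero_lt_one
  obtain ⟨t, ht, ht'⟩ := (h2.and h3).exists
  exact ⟨t, ht'.1, ht'.2, ht⟩

lemma le (h : LocLin φ x) (y : X) : φ y ≤ ‖y‖ := by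
  obtain ⟨t, ht0, ht1, ht⟩ := h.exists_pos (y - x)
  have e : x + t • (y - x) = (1 - t) • x + t • y := by
    rw [smul_sub, sub_smul, one_smul]; abel
  rw [e, map_add, map_smul, map_smul, smul_eq_mul, smul_eq_mul, ← h.self] at ht
  have h1 : ‖(1 - t) • x + t • y‖ ≤ (1 - t) * ‖x‖ + t * ‖y‖ := by
    calc _ ≤ ‖(1 - t) • x‖ + ‖t • y‖ := norm_add_le _ _
      _ = _ := by
        rw [norm_smul, norm_smul, Real.norm_of_nonneg (by linarith), Real.norm_of_nonneg ht0.le]
  rw [ht] at h1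
  have : t * φ y ≤ t * ‖y‖ := by linarith
  exact le_of_mul_le_mul_left this ht0

lemma add (h : LocLin φ x) (he : ‖e‖ = φ e) : LocLin φ (x + e) := by
  have hle := h.le
  have hc : Tendsto (fun y : X => y - e) (𝓝 (x + e)) (𝓝 x) := by
    have : Continuous (fun y : X => y - e) := by fun_prop
    have h0 := this.tendsto (x + e)
    simpa using h0
  have := hc.eventually h
  filter_upwards [this] with y hy
  apply le_antisymm
  · calc ‖y‖ = ‖(y - e) + e‖ := by rw [sub_add_cancel]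
      _ ≤ ‖y - e‖ + ‖e‖ := norm_add_le _ _
      _ = φ (y - e) + φ e := by rw [hy, he]
      _ = φ y := by rw [← map_add, sub_add_cancel]
  · exact hle y

lemma smul (h : LocLin φ x) {c : ℝ} (hc : 0 < c) : LocLin φ (c • x) := by
  have hcont : Tendsto (fun y : X => c⁻¹ • y) (𝓝 (c • x)) (𝓝 x) := by
    have : Continuous (fun y : X => c⁻¹ • y) := by fun_prop
    have h0 := this.tendsto (c • x)
    rwa [smul_smul, inv_mul_cancel₀ hc.ne', one_smul] at h0
  filter_upwards [hcont.eventually h] with y hy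
  rw [norm_smul, map_smul, smul_eq_mul, norm_inv, Real.norm_of_nonneg hc.le] at hy
  have hci : c⁻¹ ≠ 0 := by positivity
  exact mul_left_cancel₀ hci hy

lemma unique (h : LocLin φ x) (hψ : ∀ y, ψ y ≤ ‖y‖) (hx : ψ x = ‖x‖) : ψ = φ := by
  ext v
  -- ψ v ≤ φ v and ψ (-v) ≤ φ (-v)
  have key : ∀ v : X, ψ v ≤ φ v := by
    intro v
    obtain ⟨t, ht0, _, ht⟩ := h.exists_pos v
    have h1 := hψ (x + t • v)
    rw [ht, map_add, map_add, map_smul, map_smul, hx, smul_eq_mul, smul_eq_mul, ← h.self] at h1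
    have : t * ψ v ≤ t * φ v := by linarith
    exact le_of_mul_le_mul_left this ht0
  have h1 := key v
  have h2 := key (-v)
  rw [map_neg, map_neg] at h2
  linarith

lemma par (h : LocLin φ x) (he : ‖e‖ = φ e) : Par x e := by
  unfold Par
  rw [(h.add he).self, map_add, he, h.self]

lemma of_par (h : LocLin φ x) (he : Par x e) : ‖e‖ = φ e := by
  obtain ⟨t, ht0, _, ht⟩ := h.exists_pos e
  have h1 := he.comb (a := 1) (b := t) zero_le_one ht0.le
  rw [one_smul, one_mul, ht, map_add, map_smul, smul_eq_mul, ← h.self] at h1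
  have : t * φ e = t * ‖e‖ := by linarith
  exact (mul_left_cancel₀ ht0.ne' this).symm

lemma par_iff (h : LocLin φ x) : ‖e‖ = φ e ↔ Par x e := ⟨h.par, h.of_par⟩

lemma eventually (h : LocLin φ x) : ∀ᶠ y in 𝓝 x, LocLin φ y := eventually_eventually_nhds.2 h

end LocLin

lemma Par.symm {x y : X} (h : Par x y) : Par y x := by
  unfold Par at *; rw [add_comm y x, h, add_comm]

end Vale.Agent.H11.Tingley
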