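import Vale.Agent.H11.Tingley1

set_option linter.unusedSectionVars false

open Filter Topology Set

namespace Vale.Agent.H11.Tingley

variable {X Y : Type*} [NormedAddCommGroup X] [NormedSpace ℝ X]
  [NormedAddCommGroup Y] [NormedSpace ℝ Y]

/-- Images of interior points of facets are such points. -/
lemma exists_locLin_image {F : X ≃ Y} (h : SphIso F) {φ : X →L[ℝ] ℝ} {x₀ : X} (hx : x₀ ≠ 0)
    (hφ : LocLin φ x₀) : ∃ ψ : Y →L[ℝ] ℝ, ‖ψ‖ = 1 ∧ LocLin ψ (F x₀) := by
  have hF := h.continuous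
  have hFs := h.symm.continuous
  have hop := h.isSph_op
  -- points near x₀ are pairwise parallel
  have hev : ∀ᶠ y in 𝓝 x₀, LocLin φ y := hφ.eventually
  -- points of Y near F x₀
  have hA : ∀ᶠ a in 𝓝 (F x₀), LocLin φ (F.symm a) := by
    have : Tendsto F.symm (𝓝 (F x₀)) (𝓝 x₀) := by
      have := hFs.tendsto (F x₀); simpa using this
    exact this.eventually hev
  have hB : ∀ᶠ b in 𝓝 (SphIso.op F x₀), LocLin φ ((SphIso.op F).symm b) := by
    have : Tendsto (SphIso.op F).symm (𝓝 (SphIso.op F x₀)) (𝓝 x₀) := by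
      have := hop.symm.continuous.tendsto (SphIso.op F x₀)
      rwa [Equiv.symm_apply_apply] at this
    exact this.eventually hev
  have hpar : ∀ a b : Y, LocLin φ (F.symm a) → LocLin φ ((SphIso.op F).symm b) → Par a b := by
    intro a b ha hb
    have h1 : Par (F.symm a) ((SphIso.op F).symm b) := ha.par hb.self
    have h2 := h.par h1
    rwa [Equiv.apply_symm_apply, Equiv.apply_symm_apply] at h2
  set w := F x₀ with hw
  set g := SphIso.op F x₀ with hg
  have hw0 : ‖w‖ ≠ 0 := by rw [hw, h.norm]; simpa using hx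
  obtain ⟨ψ, hψ1, hψ⟩ := exists_dual_vector ℝ w hw0
  refine ⟨ψ, hψ1, ?_⟩
  have hψle : ∀ y, ψ y ≤ ‖y‖ := by
    intro y
    calc ψ y ≤ ‖ψ y‖ := le_abs_self _
      _ ≤ ‖ψ‖ * ‖y‖ := ψ.le_opNorm y
      _ = ‖y‖ := by rw [hψ1, one_mul]
  have t1 : Tendsto (fun y : Y => w + (y - w)) (𝓝 w) (𝓝 w) := by
    have : Continuous (fun y : Y => w + (y - w)) := by fun_prop
    have h0 := this.tendsto w
    simpa using h0
  have t2 : Tendsto (fun y : Y => w - (y - w)) (𝓝 w) (𝓝 w) := by
    have : Continuous (fun y : Y => w - (y - w)) := by fun_prop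
    have h0 := this.tendsto w
    simpa using h0
  have t3 : Tendsto (fun y : Y => g + (y - w)) (𝓝 w) (𝓝 g) := by
    have : Continuous (fun y : Y => g + (y - w)) := by fun_prop
    have h0 := this.tendsto w
    simpa using h0
  have t4 : Tendsto (fun y : Y => g - (y - w)) (𝓝 w) (𝓝 g) := by
    have : Continuous (fun y : Y => g - (y - w)) := by fun_prop
    have h0 := this.tendsto w
    simpa using h0
  have hAw := hA.self_of_nhds
  have hBg := hB.self_of_nhds
  filter_upwards [t1.eventually hA, t2.eventually hA, t3.eventually hB, t4.eventually hB]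
    with y a1 a2 b1 b2
  have e1 := hpar _ _ a1 hBg
  have e2 := hpar _ _ hAw b1
  have e3 := hpar _ _ a2 b1
  have e4 := hpar _ _ hAw hBg
  unfold Par at e1 e2 e3 e4
  have s1 : w + (y - w) + g = w + (g + (y - w)) := by abel
  have s3 : w - (y - w) + (g + (y - w)) = w + g := by abel
  rw [s1] at e1
  rw [s3] at e3
  have k1 := hψle (w + (y - w))
  have k2 := hψle (w - (y - w))
  rw [map_add] at k1
  rw [map_sub] at k2
  have hψ' : ψ w = ‖w‖ := by simpa using hψ
  have e5 : w + (y - w) = y := by abel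
  rw [e5] at e1 k1
  have e6 : ψ y = ψ w + ψ (y - w) := by rw [← map_add, e5]
  linarith

/-- The facet `{φ = ‖·‖}` is mapped to the facet of the image functional. -/
lemma facet_iff {F : X ≃ Y} (h : SphIso F) {φ : X →L[ℝ] ℝ} {ψ : Y →L[ℝ] ℝ} {x₀ : X} (hx : x₀ ≠ 0)
    (hφ : LocLin φ x₀) (hψ : LocLin ψ (F x₀)) :
    LocLin ψ (SphIso.op F x₀) ∧ ∀ y, ‖y‖ = φ y ↔ ‖F y‖ = ψ (F y) := by
  obtain ⟨ψ', hψ'1, hψ'⟩ := exists_locLin_image h.isSph_op hx hφ
  have key : ∀ y, ‖y‖ = φ y ↔ ‖F y‖ = ψ' (F y) := by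
    intro y
    rw [hφ.par_iff, hψ'.par_iff]
    constructor
    · intro hp; exact (h.par hp.symm).symm
    · intro hp
      exact (h.par_iff.2 hp.symm).symm
  have h1 : ψ' (F x₀) = ‖F x₀‖ := ((key x₀).1 hφ.self).symm
  have h2 : ψ' = ψ := hψ.unique hψ'.le h1
  subst h2
  exact ⟨hψ', key⟩

/-- Points in the interior of a facet go to points in the interior of the image facet. -/
lemma locLin_image {F : X ≃ Y} (h : SphIso F) {φ : X →L[ℝ] ℝ} {ψ : Y →L[ℝ] ℝ} {x₀ x : X}
    (hx₀ : x₀ ≠ 0) (hx : x ≠ 0)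
    (hφ : LocLin φ x₀) (hψ : LocLin ψ (F x₀)) (hφx : LocLin φ x) : LocLin ψ (F x) := by
  obtain ⟨ψ', -, hψ'⟩ := exists_locLin_image h hx hφx
  have h1 : ‖F x‖ = ψ (F x) := ((facet_iff h hx₀ hφ hψ).2 x).1 hφx.self
  have h2 : ψ = ψ' := hψ'.unique hψ.le h1.symm
  rw [h2]; exact hψ'

/-- Local identity near a facet. -/
lemma local_identity {F : X ≃ Y} (h : SphIso F) {φ : X →L[ℝ] ℝ} {ψ : Y →L[ℝ] ℝ} {x₀ e : X}
    (hx₀ : x₀ ≠ 0) (he0 : e ≠ 0)
    (hφ : LocLin φ x₀) (hψ : LocLin ψ (F x₀)) (he : ‖e‖ = φ e) :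
    ∀ᶠ y in 𝓝 e, ψ (F y) = φ y := by
  obtain ⟨hψo, hfac⟩ := facet_iff h hx₀ hφ hψ
  have hF := h.continuous
  have nx0 : 0 < ‖x₀‖ := norm_pos_iff.2 hx₀
  have ne0 : 0 < ‖e‖ := norm_pos_iff.2 he0
  set c : X → ℝ := fun y => ‖y‖ / ‖x₀‖ with hc
  have hcc : Continuous c := by
    rw [hc]; fun_prop
  have hce : 0 < c e := by rw [hc]; positivity
  -- first functional
  have l1 : LocLin φ (e + c e • x₀) := by
    have := (hφ.smul hce).add he
    rwa [add_comm] at this
  have l2 : LocLin ψ (F e + c e • SphIso.op F x₀) := by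
    have := (hψo.smul hce).add ((hfac e).1 he)
    rwa [add_comm] at this
  have t1 : Tendsto (fun y => y + c y • x₀) (𝓝 e) (𝓝 (e + c e • x₀)) := by
    have : Continuous (fun y => y + c y • x₀) := by fun_prop
    exact this.tendsto e
  have t2 : Tendsto (fun y => F y + c y • SphIso.op F x₀) (𝓝 e)
      (𝓝 (F e + c e • SphIso.op F x₀)) := by
    have : Continuous (fun y => F y + c y • SphIso.op F x₀) := by fun_prop
    exact this.tendsto e
  filter_upwards [t1.eventually l1, t2.eventually l2] with y h1 h2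
  have hcy : 0 ≤ c y := by rw [hc]; positivity
  have hny : ‖y‖ = ‖c y • x₀‖ := by
    rw [norm_smul, Real.norm_of_nonneg hcy, hc]; field_simp
  have h3 := h.norm_add y (c y • x₀) hny
  rw [h.isSph_op.smul _ _ hcy, h1, h2, map_add, map_add, map_smul, map_smul] at h3
  have h4 : ψ (SphIso.op F x₀) = φ x₀ := by
    rw [← hψo.self, ← hφ.self, h.isSph_op.norm]
  rw [h4] at h3
  linarith

/-- Reflection-type argument: centres of symmetry are preserved by isometries. -/
theorem fixed_center {V : Type*} [MetricSpace V] [BoundedSpace V] (σ : V ≃ᵢ V)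
    (hσ : ∀ x, σ (σ x) = x) (z : V) (hz : σ z = z)
    (h2 : ∀ x, dist (σ x) x = 2 * dist x z) (g : V ≃ᵢ V) : g z = z := by
  have hbdd : BddAbove (Set.range fun g : V ≃ᵢ V => dist (g z) z) := by
    refine ⟨Metric.diam (Set.univ : Set V), ?_⟩
    rintro _ ⟨g, rfl⟩
    exact Metric.dist_le_diam_of_mem (Bornology.IsBounded.all _) (mem_univ _) (mem_univ _)
  set lam := ⨆ g : V ≃ᵢ V, dist (g z) z with hlam
  have key : ∀ g : V ≃ᵢ V, 2 * dist (g z) z ≤ lam := by
    intro g
    have h1 : dist ((((g.trans σ).trans g.symm).trans σ) z) z = 2 * dist (g z) z := by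
      have : (((g.trans σ).trans g.symm).trans σ) z = σ (g.symm (σ (g z))) := rfl
      rw [this]
      calc dist (σ (g.symm (σ (g z)))) z = dist (σ (g.symm (σ (g z)))) (σ z) := by rw [hz]
        _ = dist (g.symm (σ (g z))) z := σ.dist_eq _ _
        _ = dist (g (g.symm (σ (g z)))) (g z) := (g.dist_eq _ _).symm
        _ = dist (σ (g z)) (g z) := by rw [IsometryEquiv.apply_symm_apply]
        _ = 2 * dist (g z) z := h2 _
    rw [← h1]
    exact le_ciSup hbdd _
  have h3 : lam ≤ lam / 2 := by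
    apply ciSup_le
    intro g
    have := key g
    linarith
  have h4 : lam ≤ 0 := by linarith
  have h5 := key g
  have h6 : dist (g z) z ≤ 0 := by linarith
  exact dist_le_zero.1 h6

theorem center_map {V V' : Type*} [MetricSpace V] [BoundedSpace V] [MetricSpace V']
    (σ : V ≃ᵢ V) (hσ : ∀ x, σ (σ x) = x) (z : V) (hz : σ z = z)
    (h2 : ∀ x, dist (σ x) x = 2 * dist x z)
    (σ' : V' ≃ᵢ V') (hσ' : ∀ x, σ' (σ' x) = x) (z' : V') 
    (hz'' : ∀ x, σ' x = x → x = z')
    (k : V ≃ᵢ V') : k z = z' := by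
  -- consider g = σ ∘ k⁻¹ ∘ σ' ∘ k
  have hg := fixed_center σ hσ z hz h2 (((k.trans σ').trans k.symm).trans σ)
  have e : (((k.trans σ').trans k.symm).trans σ) z = σ (k.symm (σ' (k z))) := rfl
  rw [e] at hg
  have h3 : k.symm (σ' (k z)) = z := by
    have := congrArg σ hg
    rw [hσ, hz] at this
    exact this
  have h4 : σ' (k z) = k z := by
    have := congrArg k h3
    rwa [IsometryEquiv.apply_symm_apply] at this
  exact hz'' _ h4

end Vale.Agent.H11.Tingley
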