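import Vale.Agent.H11.Tingley2

set_option linter.unusedSectionVars false

open Filter Topology Set

namespace Vale.Agent.H11.Tingley

variable {X Y : Type*} [NormedAddCommGroup X] [NormedSpace ℝ X]
  [NormedAddCommGroup Y] [NormedSpace ℝ Y]

/-- Local midpoint preservation inside a facet. -/
lemma midpoint_local {F : X ≃ Y} (h : SphIso F) {φ : X →L[ℝ] ℝ} {ψ : Y →L[ℝ] ℝ}
    (hfac : ∀ y, ‖y‖ = φ y ↔ ‖F y‖ = ψ (F y)) {a b : X} {ρ : ℝ} 
    (ha : ‖a‖ = 1) (hb : ‖b‖ = 1) (hφa : φ a = 1) (hφb : φ b = 1)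
    (h1 : ∀ y, φ y = 1 → ‖y - a‖ ≤ ρ → ‖y‖ = 1)
    (h2 : ∀ w, ψ w = 1 → ‖w - F a‖ ≤ ρ → ‖w‖ = 1)
    (h3 : ‖a - b‖ ≤ 2 * ρ) :
    F ((1/2 : ℝ) • (a + b)) = (1/2 : ℝ) • (F a + F b) := by
  have hψa : ψ (F a) = 1 := by rw [← (hfac a).1 (by rw [ha, hφa]), h.norm, ha]
  have hψb : ψ (F b) = 1 := by rw [← (hfac b).1 (by rw [hb, hφb]), h.norm, hb]
  let V : Set X := {y | φ y = 1 ∧ ‖y - a‖ ≤ ρ ∧ ‖y - b‖ ≤ ρ}
  let V' : Set Y := {w | ψ w = 1 ∧ ‖w - F a‖ ≤ ρ ∧ ‖w - F b‖ ≤ ρ}
  have hVn : ∀ y ∈ V, ‖y‖ = 1 := fun y hy => h1 y hy.1 hy.2.1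
  have hVn' : ∀ w ∈ V', ‖w‖ = 1 := fun w hw => h2 w hw.1 hw.2.1
  have hmap : ∀ y ∈ V, F y ∈ V' := by
    intro y hy
    have hy1 := hVn y hy
    refine ⟨?_, ?_, ?_⟩
    · rw [← (hfac y).1 (by rw [hy1, hy.1]), h.norm, hy1]
    · rw [h.dist1 _ _ hy1 ha]; exact hy.2.1
    · rw [h.dist1 _ _ hy1 hb]; exact hy.2.2
  have hmap' : ∀ w ∈ V', F.symm w ∈ V := by
    intro w hw
    have hw1 := hVn' w hw
    have hs : ‖F.symm w‖ = 1 := by rw [h.symm.norm, hw1]
    refine ⟨?_, ?_, ?_⟩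
    · have := (hfac (F.symm w)).2 (by rw [Equiv.apply_symm_apply, hw1, hw.1])
      rw [← this, hs]
    · rw [← h.dist1 _ _ hs ha, Equiv.apply_symm_apply]; exact hw.2.1
    · rw [← h.dist1 _ _ hs hb, Equiv.apply_symm_apply]; exact hw.2.2
  let k : V ≃ᵢ V' :=
    { toFun := fun y => ⟨F y, hmap _ y.2⟩
      invFun := fun w => ⟨F.symm w, hmap' _ w.2⟩
      left_inv := fun y => by ext; simp
      right_inv := fun w => by ext; simp
      isometry_toFun := by
        apply Isometry.of_dist_eq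
        intro y y'
        rw [Subtype.dist_eq, Subtype.dist_eq, dist_eq_norm, dist_eq_norm]
        exact h.dist1 _ _ (hVn _ y.2) (hVn _ y'.2) }
  have hσm : ∀ y ∈ V, a + b - y ∈ V := by
    intro y hy
    refine ⟨?_, ?_, ?_⟩
    · rw [map_sub, map_add, hφa, hφb, hy.1]; ring
    · have : a + b - y - a = -(y - b) := by abel
      rw [this, norm_neg]; exact hy.2.2
    · have : a + b - y - b = -(y - a) := by abel
      rw [this, norm_neg]; exact hy.2.1
  have hσm' : ∀ w ∈ V', F a + F b - w ∈ V' := by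
    intro w hw
    refine ⟨?_, ?_, ?_⟩
    · rw [map_sub, map_add, hψa, hψb, hw.1]; ring
    · have : F a + F b - w - F a = -(w - F b) := by abel
      rw [this, norm_neg]; exact hw.2.2
    · have : F a + F b - w - F b = -(w - F a) := by abel
      rw [this, norm_neg]; exact hw.2.1
  let σ : V ≃ᵢ V :=
    { toFun := fun y => ⟨a + b - y, hσm _ y.2⟩
      invFun := fun y => ⟨a + b - y, hσm _ y.2⟩
      left_inv := fun y => by ext; simp
      right_inv := fun y => by ext; simp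
      isometry_toFun := by
        apply Isometry.of_dist_eq
        intro y y'
        rw [Subtype.dist_eq, Subtype.dist_eq, dist_eq_norm, dist_eq_norm]
        have : (a + b - (y:X)) - (a + b - (y':X)) = -((y:X) - y') := by abel
        simp only [this, norm_neg] }
  let σ' : V' ≃ᵢ V' :=
    { toFun := fun y => ⟨F a + F b - y, hσm' _ y.2⟩
      invFun := fun y => ⟨F a + F b - y, hσm' _ y.2⟩
      left_inv := fun y => by ext; simp
      right_inv := fun y => by ext; simp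
      isometry_toFun := by
        apply Isometry.of_dist_eq
        intro y y'
        rw [Subtype.dist_eq, Subtype.dist_eq, dist_eq_norm, dist_eq_norm]
        have : (F a + F b - (y:Y)) - (F a + F b - (y':Y)) = -((y:Y) - y') := by abel
        simp only [this, norm_neg] }
  have hzV : (1/2 : ℝ) • (a + b) ∈ V := by
    refine ⟨?_, ?_, ?_⟩
    · rw [map_smul, map_add, hφa, hφb, smul_eq_mul]; norm_num
    · have : (1/2 : ℝ) • (a + b) - a = -((1/2 : ℝ) • (a - b)) := by
        module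
      rw [this, norm_neg, norm_smul, Real.norm_of_nonneg (by norm_num)]
      linarith
    · have : (1/2 : ℝ) • (a + b) - b = ((1/2 : ℝ) • (a - b)) := by
        module
      rw [this, norm_smul, Real.norm_of_nonneg (by norm_num)]
      linarith
  have hzV' : (1/2 : ℝ) • (F a + F b) ∈ V' := by
    have hab : ‖F a - F b‖ = ‖a - b‖ := h.dist1 _ _ ha hb
    refine ⟨?_, ?_, ?_⟩
    · rw [map_smul, map_add, hψa, hψb, smul_eq_mul]; norm_num
    · have : (1/2 : ℝ) • (F a + F b) - F a = -((1/2 : ℝ) • (F a - F b)) := by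
        module
      rw [this, norm_neg, norm_smul, Real.norm_of_nonneg (by norm_num), hab]
      linarith
    · have : (1/2 : ℝ) • (F a + F b) - F b = ((1/2 : ℝ) • (F a - F b)) := by
        module
      rw [this, norm_smul, Real.norm_of_nonneg (by norm_num), hab]
      linarith
  have : BoundedSpace V := by
    apply Metric.boundedSpace_iff.2
    refine ⟨2 * ρ, fun x y => ?_⟩
    rw [Subtype.dist_eq]
    calc dist (x:X) y ≤ dist (x:X) a + dist a (y:X) := dist_triangle _ _ _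
      _ ≤ ρ + ρ := by
        apply add_le_add
        · rw [dist_eq_norm]; exact x.2.2.1
        · rw [dist_comm, dist_eq_norm]; exact y.2.2.1
      _ = 2 * ρ := by ring
  have hcent := center_map σ (fun x => by ext; simp [σ]) ⟨(1/2 : ℝ) • (a + b), hzV⟩
    (by ext; simp only [σ, IsometryEquiv.coe_mk, Equiv.coe_fn_mk]; module)
    (by
      intro x
      rw [Subtype.dist_eq, Subtype.dist_eq, dist_eq_norm, dist_eq_norm]
      simp only [σ, IsometryEquiv.coe_mk, Equiv.coe_fn_mk]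
      have : a + b - (x:X) - x = -((2:ℝ) • ((x:X) - (1/2 : ℝ) • (a + b))) := by module
      rw [this, norm_neg, norm_smul, Real.norm_of_nonneg (by norm_num)])
    σ' (fun x => by ext; simp [σ']) ⟨(1/2 : ℝ) • (F a + F b), hzV'⟩
    (by
      intro x hx
      have hx' := congrArg Subtype.val hx
      simp only [σ', IsometryEquiv.coe_mk, Equiv.coe_fn_mk] at hx'
      ext
      simp only
      have : F a + F b = (2:ℝ) • (x:Y) := by
        rw [sub_eq_iff_eq_add] at hx'
        rw [hx']; module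
      rw [this]; module)
    k
  have := congrArg Subtype.val hcent
  simpa [k] using this

lemma LocLin.segment {φ : X →L[ℝ] ℝ} {a b : X} (ha : LocLin φ a) (hb : LocLin φ b) {t : ℝ}
    (ht0 : 0 ≤ t) (ht1 : t ≤ 1) : LocLin φ (a + t • (b - a)) := by
  rcases eq_or_lt_of_le ht1 with rfl | hlt
  · simpa using hb
  · have h1 : LocLin φ ((1 - t) • a) := ha.smul (by linarith)
    have h2 : ‖t • b‖ = φ (t • b) := by
      rw [norm_smul, Real.norm_of_nonneg ht0, map_smul, hb.self, smul_eq_mul]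
    have := h1.add h2
    have e : a + t • (b - a) = (1 - t) • a + t • b := by module
    rw [e]; exact this

/-- `F` preserves midpoints on segments in the interior of a facet. -/
lemma segment_midpoint {F : X ≃ Y} (h : SphIso F) {φ : X →L[ℝ] ℝ} {ψ : Y →L[ℝ] ℝ} {x₀ : X}
    (hx₀ : x₀ ≠ 0) (hφ : LocLin φ x₀) (hψ : LocLin ψ (F x₀)) {a b : X}
    (ha : LocLin φ a) (hb : LocLin φ b) (hφa : φ a = 1) (hφb : φ b = 1) :
    ∀ s ∈ Icc (0:ℝ) 1, ∀ t ∈ Icc (0:ℝ) 1,
      F (a + ((s + t)/2) • (b - a)) = (1/2 : ℝ) • (F (a + s • (b - a)) + F (a + t • (b - a))) := by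
  obtain ⟨-, hfac⟩ := facet_iff h hx₀ hφ hψ
  set p : ℝ → X := fun t => a + t • (b - a) with hp
  have hpc : Continuous p := by rw [hp]; fun_prop
  have hφp : ∀ t, φ (p t) = 1 := by
    intro t; simp only [hp, map_add, map_smul, map_sub, hφa, hφb, smul_eq_mul]; ring
  have hlp : ∀ t ∈ Icc (0:ℝ) 1, LocLin φ (p t) := fun t ht => ha.segment hb ht.1 ht.2
  have hnp : ∀ t ∈ Icc (0:ℝ) 1, ‖p t‖ = 1 := fun t ht => by rw [(hlp t ht).self, hφp]
  have hp0 : ∀ t ∈ Icc (0:ℝ) 1, p t ≠ 0 := by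
    intro t ht h0
    have := hnp t ht
    rw [h0, norm_zero] at this
    exact zero_ne_one this
  have hlq : ∀ t ∈ Icc (0:ℝ) 1, LocLin ψ (F (p t)) := fun t ht =>
    locLin_image h hx₀ (hp0 t ht) hφ hψ (hlp t ht)
  have hK : IsCompact (p '' Icc (0:ℝ) 1) := isCompact_Icc.image hpc
  have hK' : IsCompact ((fun t => F (p t)) '' Icc (0:ℝ) 1) :=
    isCompact_Icc.image (h.continuous.comp hpc)
  have hO : IsOpen {x : X | LocLin φ x} := by
    rw [isOpen_iff_mem_nhds]; intro x hx; exact hx.eventually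
  have hO' : IsOpen {x : Y | LocLin ψ x} := by
    rw [isOpen_iff_mem_nhds]; intro x hx; exact hx.eventually
  obtain ⟨δ, hδ, hδs⟩ := hK.exists_cthickening_subset_open hO (by
    rintro _ ⟨t, ht, rfl⟩; exact hlp t ht)
  obtain ⟨δ', hδ', hδs'⟩ := hK'.exists_cthickening_subset_open hO' (by
    rintro _ ⟨t, ht, rfl⟩; exact hlq t ht)
  set ρ := min δ δ' with hρ
  have hρ0 : 0 < ρ := lt_min hδ hδ'
  -- local statement
  have hloc : ∀ s ∈ Icc (0:ℝ) 1, ∀ t ∈ Icc (0:ℝ) 1, ‖p s - p t‖ ≤ 2 * ρ →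
      F (p ((s + t)/2)) = (1/2 : ℝ) • (F (p s) + F (p t)) := by
    intro s hs t ht hst
    have e : p ((s + t)/2) = (1/2 : ℝ) • (p s + p t) := by
      simp only [hp]; module
    rw [e]
    apply midpoint_local h hfac (hnp s hs) (hnp t ht) (hφp s) (hφp t) (ρ := ρ)
    · intro y hy hya
      have : y ∈ Metric.cthickening δ (p '' Icc (0:ℝ) 1) := by
        apply Metric.mem_cthickening_of_dist_le y (p s) δ (p '' Icc (0:ℝ) 1)
          (mem_image_of_mem p hs)
        rw [dist_eq_norm]; exact hya.trans (min_le_left _ _)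
      have := hδs this
      rw [LocLin.self this, hy]
    · intro w hw hwa
      have : w ∈ Metric.cthickening δ' ((fun t => F (p t)) '' Icc (0:ℝ) 1) := by
        apply Metric.mem_cthickening_of_dist_le w (F (p s)) δ'
          ((fun t => F (p t)) '' Icc (0:ℝ) 1) (mem_image_of_mem (fun t => F (p t)) hs)
        rw [dist_eq_norm]; exact hwa.trans (min_le_right _ _)
      have := hδs' this
      rw [LocLin.self this, hw]
    · exact hst
  -- doubling
  have hdist : ∀ s t, ‖p s - p t‖ = |s - t| * ‖b - a‖ := by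
    intro s t
    have : p s - p t = (s - t) • (b - a) := by simp only [hp]; module
    rw [this, norm_smul, Real.norm_eq_abs]
  have hdouble : ∀ n : ℕ, ∀ s ∈ Icc (0:ℝ) 1, ∀ t ∈ Icc (0:ℝ) 1, ‖p s - p t‖ ≤ 2^n * (2 * ρ) →
      F (p ((s + t)/2)) = (1/2 : ℝ) • (F (p s) + F (p t)) := by
    intro n
    induction n with
    | zero => intro s hs t ht hst; exact hloc s hs t ht (by simpa using hst)
    | succ n ih =>
      intro s hs t ht hst
      have hm : (s + t)/2 ∈ Icc (0:ℝ) 1 := ⟨by linarith [hs.1, ht.1], by linarith [hs.2, ht.2]⟩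
      have hs' : (s + (s + t)/2)/2 ∈ Icc (0:ℝ) 1 :=
        ⟨by linarith [hs.1, hm.1], by linarith [hs.2, hm.2]⟩
      have ht' : ((s + t)/2 + t)/2 ∈ Icc (0:ℝ) 1 :=
        ⟨by linarith [ht.1, hm.1], by linarith [ht.2, hm.2]⟩
      rw [hdist, pow_succ] at hst
      have i1 := ih s hs _ hm (by
        rw [hdist]
        have : s - (s + t)/2 = (s - t)/2 := by ring
        rw [this, abs_div, abs_of_pos (by norm_num : (0:ℝ) < 2)]
        linarith)
      have i2 := ih _ hm t ht (by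
        rw [hdist]
        have : (s + t)/2 - t = (s - t)/2 := by ring
        rw [this, abs_div, abs_of_pos (by norm_num : (0:ℝ) < 2)]
        linarith)
      have i3 := ih _ hs' _ ht' (by
        rw [hdist]
        have : (s + (s + t)/2)/2 - ((s + t)/2 + t)/2 = (s - t)/2 := by ring
        rw [this, abs_div, abs_of_pos (by norm_num : (0:ℝ) < 2)]
        linarith)
      have e : ((s + (s + t)/2)/2 + ((s + t)/2 + t)/2)/2 = (s + t)/2 := by ring
      rw [e, i1, i2] at i3
      -- q m = (1/2) ((1/2)(q s + q m) + (1/2)(q m + q t))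
      have i4 : F (p ((s+t)/2)) = (2:ℝ) • F (p ((s+t)/2)) - F (p ((s+t)/2)) := by module
      have i5 : (2:ℝ) • F (p ((s+t)/2)) = (1/2 : ℝ) • (F (p s) + F (p t)) + F (p ((s+t)/2)) := by
        conv_lhs => rw [i3]
        module
      rw [i4, i5]; module
  intro s hs t ht
  obtain ⟨n, hn⟩ := pow_unbounded_of_one_lt (‖p s - p t‖ / (2 * ρ)) (by norm_num : (1:ℝ) < 2)
  apply hdouble n s hs t ht
  rw [div_lt_iff₀ (by positivity)] at hn
  exact hn.le

/-- `F` is affine on segments in the interior of a facet. -/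
lemma segment_affine {F : X ≃ Y} (h : SphIso F) {φ : X →L[ℝ] ℝ} {ψ : Y →L[ℝ] ℝ} {x₀ : X}
    (hx₀ : x₀ ≠ 0) (hφ : LocLin φ x₀) (hψ : LocLin ψ (F x₀)) {a b : X}
    (ha : LocLin φ a) (hb : LocLin φ b) (hφa : φ a = 1) (hφb : φ b = 1) :
    ∀ t ∈ Icc (0:ℝ) 1, F (a + t • (b - a)) = F a + t • (F b - F a) := by
  have hmid := segment_midpoint h hx₀ hφ hψ ha hb hφa hφb
  set r : ℝ → Y := fun t => F (a + t • (b - a)) - (F a + t • (F b - F a)) with hr
  have hr0 : r 0 = 0 := by simp [hr]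
  have hr1 : r 1 = 0 := by simp [hr]
  have hrm : ∀ s ∈ Icc (0:ℝ) 1, ∀ t ∈ Icc (0:ℝ) 1, r ((s + t)/2) = (1/2 : ℝ) • (r s + r t) := by
    intro s hs t ht
    simp only [hr]
    rw [hmid s hs t ht]
    module
  have hbd : ∀ t ∈ Icc (0:ℝ) 1, ‖r t‖ ≤ 4 := by
    intro t ht
    have n1 : ‖F (a + t • (b - a))‖ = 1 := by
      rw [h.norm, (ha.segment hb ht.1 ht.2).self]
      simp only [map_add, map_smul, map_sub, hφa, hφb, smul_eq_mul]; ring
    have n2 : ‖F a‖ = 1 := by rw [h.norm, ha.self, hφa]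
    have n3 : ‖F b‖ = 1 := by rw [h.norm, hb.self, hφb]
    have n4 : ‖t • (F b - F a)‖ ≤ 2 := by
      rw [norm_smul, Real.norm_of_nonneg ht.1]
      have : ‖F b - F a‖ ≤ 2 := by
        calc _ ≤ ‖F b‖ + ‖F a‖ := norm_sub_le _ _
          _ = 2 := by rw [n2, n3]; norm_num
      have h0 := norm_nonneg (F b - F a)
      nlinarith [ht.2, ht.1]
    calc ‖r t‖ ≤ ‖F (a + t • (b - a))‖ + ‖F a + t • (F b - F a)‖ := norm_sub_le _ _
      _ ≤ 1 + (‖F a‖ + ‖t • (F b - F a)‖) := by
        rw [n1]; gcongr; exact norm_add_le _ _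
      _ ≤ 4 := by rw [n2]; linarith
  have hind : ∀ n : ℕ, ∀ t ∈ Icc (0:ℝ) 1, ‖r t‖ ≤ 4 / 2^n := by
    intro n
    induction n with
    | zero => intro t ht; simpa using hbd t ht
    | succ n ih =>
      intro t ht
      rcases le_total t (1/2) with h2 | h2
      · have h2t : 2 * t ∈ Icc (0:ℝ) 1 := ⟨by linarith [ht.1], by linarith⟩
        have := hrm 0 ⟨le_refl _, zero_le_one⟩ (2*t) h2t
        have e : (0 + 2 * t)/2 = t := by ring
        rw [e, hr0, zero_add] at this
        rw [this, norm_smul, Real.norm_of_nonneg (by norm_num), pow_succ]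
        have := ih _ h2t
        calc (1/2 : ℝ) * ‖r (2 * t)‖ ≤ (1/2) * (4 / 2^n) := by gcongr
          _ = 4 / (2^n * 2) := by field_simp
      · have h2t : 2 * t - 1 ∈ Icc (0:ℝ) 1 := ⟨by linarith, by linarith [ht.2]⟩
        have := hrm (2*t - 1) h2t 1 ⟨zero_le_one, le_refl _⟩
        have e : (2 * t - 1 + 1)/2 = t := by ring
        rw [e, hr1, add_zero] at this
        rw [this, norm_smul, Real.norm_of_nonneg (by norm_num), pow_succ]
        have := ih _ h2t
        calc (1/2 : ℝ) * ‖r (2 * t - 1)‖ ≤ (1/2) * (4 / 2^n) := by gcongr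
          _ = 4 / (2^n * 2) := by field_simp
  intro t ht
  have h0 : ‖r t‖ ≤ 0 := by
    apply le_of_forall_pos_le_add
    intro ε hε
    obtain ⟨n, hn⟩ := pow_unbounded_of_one_lt (4/ε) (by norm_num : (1:ℝ) < 2)
    have h1 := hind n t ht
    have h2 : (4:ℝ) / 2^n ≤ ε := by
      rw [div_lt_iff₀ hε] at hn
      rw [div_le_iff₀ (by positivity)]
      linarith
    linarith
  have h1 : r t = 0 := norm_le_zero_iff.1 h0
  exact sub_eq_zero.1 h1

/-- `F` is additive on the open cone over the interior of a facet. -/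
lemma additive_open {F : X ≃ Y} (h : SphIso F) {φ : X →L[ℝ] ℝ} {ψ : Y →L[ℝ] ℝ} {x₀ : X}
    (hx₀ : x₀ ≠ 0) (hφ : LocLin φ x₀) (hψ : LocLin ψ (F x₀)) {u v : X} (hu0 : u ≠ 0) (hv0 : v ≠ 0)
    (hu : LocLin φ u) (hv : LocLin φ v) : F (u + v) = F u + F v := by
  have nu : 0 < ‖u‖ := norm_pos_iff.2 hu0
  have nv : 0 < ‖v‖ := norm_pos_iff.2 hv0
  set α := ‖u‖ with hα
  set β := ‖v‖ with hβ
  have ha : LocLin φ (α⁻¹ • u) := hu.smul (by positivity)
  have hb : LocLin φ (β⁻¹ • v) := hv.smul (by positivity)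
  have hφa : φ (α⁻¹ • u) = 1 := by
    rw [map_smul, ← hu.self, smul_eq_mul, ← hα, inv_mul_cancel₀ nu.ne']
  have hφb : φ (β⁻¹ • v) = 1 := by
    rw [map_smul, ← hv.self, smul_eq_mul, ← hβ, inv_mul_cancel₀ nv.ne']
  have ht : β / (α + β) ∈ Icc (0:ℝ) 1 :=
    ⟨by positivity, by rw [div_le_one (by positivity)]; linarith⟩
  have key := segment_affine h hx₀ hφ hψ ha hb hφa hφb _ ht
  have e : u + v = (α + β) • (α⁻¹ • u + (β/(α+β)) • (β⁻¹ • v - α⁻¹ • u)) := by
    rw [smul_add, smul_smul, smul_smul, mul_div_cancel₀ _ (by positivity : α + β ≠ 0), smul_sub,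
      smul_smul, smul_smul, mul_inv_cancel₀ nv.ne', one_smul, add_mul, add_smul,
      mul_inv_cancel₀ nu.ne', one_smul]
    abel
  rw [e, h.smul _ _ (by positivity), key, h.smul _ _ (by positivity), h.smul _ _ (by positivity)]
  rw [smul_add, smul_smul, smul_smul, mul_div_cancel₀ _ (by positivity : α + β ≠ 0), smul_sub,
      smul_smul, smul_smul, mul_inv_cancel₀ nv.ne', one_smul, add_mul, add_smul,
      mul_inv_cancel₀ nu.ne', one_smul]
  abel

/-- `F` is additive on the closed cone over a facet. -/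
lemma additive_closed {F : X ≃ Y} (h : SphIso F) {φ : X →L[ℝ] ℝ} {ψ : Y →L[ℝ] ℝ} {x₀ : X}
    (hx₀ : x₀ ≠ 0) (hφ : LocLin φ x₀) (hψ : LocLin ψ (F x₀)) {u v : X}
    (hu : ‖u‖ = φ u) (hv : ‖v‖ = φ v) : F (u + v) = F u + F v := by
  have hF := h.continuous
  have hn0 : 0 < ‖x₀‖ := norm_pos_iff.2 hx₀
  have key : ∀ᶠ ε : ℝ in 𝓝[>] 0,
      F ((u + ε • x₀) + (v + ε • x₀)) = F (u + ε • x₀) + F (v + ε • x₀) := by
    filter_upwards [self_mem_nhdsWithin] with ε hε
    have hε' : (0:ℝ) < ε := hε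
    have h1 : LocLin φ (u + ε • x₀) := by
      have := (hφ.smul hε').add hu
      rwa [add_comm] at this
    have h2 : LocLin φ (v + ε • x₀) := by
      have := (hφ.smul hε').add hv
      rwa [add_comm] at this
    have n1 : u + ε • x₀ ≠ 0 := by
      intro h0
      have := h1.self
      rw [h0, norm_zero] at this
      have h3 : φ (u + ε • x₀) = ‖u‖ + ε * ‖x₀‖ := by
        rw [map_add, map_smul, hu, ← hφ.self, smul_eq_mul]
      rw [h0] at h3
      rw [← this] at h3
      have : 0 < ‖u‖ + ε * ‖x₀‖ := by positivity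
      linarith
    have n2 : v + ε • x₀ ≠ 0 := by
      intro h0
      have := h2.self
      rw [h0, norm_zero] at this
      have h3 : φ (v + ε • x₀) = ‖v‖ + ε * ‖x₀‖ := by
        rw [map_add, map_smul, hv, ← hφ.self, smul_eq_mul]
      rw [h0] at h3
      rw [← this] at h3
      have : 0 < ‖v‖ + ε * ‖x₀‖ := by positivity
      linarith
    exact additive_open h hx₀ hφ hψ n1 n2 h1 h2
  have c1 : Tendsto (fun ε : ℝ => F ((u + ε • x₀) + (v + ε • x₀))) (𝓝[>] 0) (𝓝 (F (u + v))) := by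
    have : Continuous (fun ε : ℝ => F ((u + ε • x₀) + (v + ε • x₀))) := by fun_prop
    have h0 := (this.tendsto 0).mono_left (nhdsWithin_le_nhds (s := Ioi 0))
    simpa using h0
  have c2 : Tendsto (fun ε : ℝ => F (u + ε • x₀) + F (v + ε • x₀)) (𝓝[>] 0)
      (𝓝 (F u + F v)) := by
    have : Continuous (fun ε : ℝ => F (u + ε • x₀) + F (v + ε • x₀)) := by fun_prop
    have h0 := (this.tendsto 0).mono_left (nhdsWithin_le_nhds (s := Ioi 0))
    simpa using h0
  exact tendsto_nhds_unique (c1.congr' key) c2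

end Vale.Agent.H11.Tingley
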