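import Vale.Agent.H11.Tingley3

set_option linter.unusedSectionVars false

open Filter Topology Set

namespace Vale.Agent.H11.Tingley

variable {X Y : Type*} [NormedAddCommGroup X] [NormedSpace ℝ X]
  [NormedAddCommGroup Y] [NormedSpace ℝ Y]

/-- `φ` is the functional of a facet (the norm equals `φ` on some nonempty open set). -/
def Fac (φ : X →L[ℝ] ℝ) : Prop := ∃ x₀ : X, x₀ ≠ 0 ∧ LocLin φ x₀

lemma LocLin.exists_ball {φ : X →L[ℝ] ℝ} {x₀ : X} (h : LocLin φ x₀) :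
    ∃ r : ℝ, 0 < r ∧ ∀ z : X, ∀ s : ℝ, 0 ≤ s → ‖z‖ ≤ s * r → ‖z + s • x₀‖ = φ (z + s • x₀) := by
  obtain ⟨r, hr, hball⟩ := Metric.eventually_nhds_iff.1 h
  refine ⟨r/2, by positivity, ?_⟩
  intro z s hs hz
  rcases eq_or_lt_of_le hs with rfl | hs'
  · have : z = 0 := by
      rw [zero_mul] at hz
      exact norm_le_zero_iff.1 hz
    subst this; simp
  · have e : z + s • x₀ = s • (x₀ + s⁻¹ • z) := by
      rw [smul_add, smul_smul, mul_inv_cancel₀ hs'.ne', one_smul, add_comm]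
    have hd : dist (x₀ + s⁻¹ • z) x₀ < r := by
      rw [dist_eq_norm, add_sub_cancel_left, norm_smul, norm_inv, Real.norm_of_nonneg hs]
      rw [inv_mul_lt_iff₀ hs']
      nlinarith
    rw [e, norm_smul, hball hd, map_smul, Real.norm_of_nonneg hs, smul_eq_mul]

lemma cone_add {φ : X →L[ℝ] ℝ} (hle : ∀ y, φ y ≤ ‖y‖) {u v : X} (hu : ‖u‖ = φ u)
    (hv : ‖v‖ = φ v) : ‖u + v‖ = φ (u + v) := by
  apply le_antisymm
  · calc ‖u + v‖ ≤ ‖u‖ + ‖v‖ := norm_add_le _ _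
      _ = φ (u + v) := by rw [hu, hv, map_add]
  · exact hle _

lemma cone_smul {φ : X →L[ℝ] ℝ} {u : X} (hu : ‖u‖ = φ u) {c : ℝ} (hc : 0 ≤ c) :
    ‖c • u‖ = φ (c • u) := by
  rw [norm_smul, Real.norm_of_nonneg hc, hu, map_smul, smul_eq_mul]

/-- `F` agrees with a surjective linear map on the cone over a facet. -/
lemma exists_linear {F : X ≃ Y} (h : SphIso F) {φ : X →L[ℝ] ℝ} (hφ : Fac φ) :
    ∃ T : X →ₗ[ℝ] Y, (∀ y, ‖y‖ = φ y → F y = T y) ∧ Function.Surjective T := by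
  obtain ⟨x₀, hx₀, hloc⟩ := hφ
  obtain ⟨ψ, -, hψ⟩ := exists_locLin_image h hx₀ hloc
  obtain ⟨-, hfac⟩ := facet_iff h hx₀ hloc hψ
  obtain ⟨r, hr, hball⟩ := hloc.exists_ball
  obtain ⟨r', hr', hball'⟩ := hψ.exists_ball
  have hadd : ∀ u v, ‖u‖ = φ u → ‖v‖ = φ v → F (u + v) = F u + F v := fun u v hu hv =>
    additive_closed h hx₀ hloc hψ hu hv
  have hKx : ∀ s : ℝ, 0 ≤ s → ‖s • x₀‖ = φ (s • x₀) := fun s hs => cone_smul hloc.self hs
  let t : X → Y := fun z => F (z + (‖z‖/r) • x₀) - F ((‖z‖/r) • x₀)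
  have ht : ∀ z : X, ∀ s : ℝ, 0 ≤ s → ‖z‖ ≤ s * r → t z = F (z + s • x₀) - F (s • x₀) := by
    intro z s hs hz
    set s₀ := ‖z‖ / r with hs₀
    have hs₀0 : 0 ≤ s₀ := by positivity
    have hle : s₀ ≤ s := by rw [hs₀, div_le_iff₀ hr]; exact hz
    have hz₀ : ‖z‖ ≤ s₀ * r := by rw [hs₀]; field_simp; exact le_refl _
    have e1 : z + s • x₀ = (z + s₀ • x₀) + (s - s₀) • x₀ := by rw [sub_smul]; abel
    have e2 : s • x₀ = s₀ • x₀ + (s - s₀) • x₀ := by rw [sub_smul]; abel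
    have e3 := hadd _ _ (hball z s₀ hs₀0 hz₀) (hKx (s - s₀) (by linarith))
    have e4 := hadd _ _ (hKx s₀ hs₀0) (hKx (s - s₀) (by linarith))
    rw [← e1] at e3
    rw [← e2] at e4
    rw [e3, e4]
    show F (z + s₀ • x₀) - F (s₀ • x₀) = _
    abel
  have hnn : ∀ z : X, 0 ≤ ‖z‖ / r := fun z => by positivity
  have hnr : ∀ z : X, ‖z‖ = ‖z‖ / r * r := fun z => by field_simp
  have tadd : ∀ z w, t (z + w) = t z + t w := by
    intro z w
    have h1 : ‖z + w‖ ≤ (‖z‖/r + ‖w‖/r) * r := by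
      rw [add_mul, ← hnr, ← hnr]; exact norm_add_le _ _
    rw [ht (z + w) (‖z‖/r + ‖w‖/r) (add_nonneg (hnn z) (hnn w)) h1]
    have e1 : z + w + (‖z‖/r + ‖w‖/r) • x₀ = (z + (‖z‖/r) • x₀) + (w + (‖w‖/r) • x₀) := by
      rw [add_smul]; abel
    have e2 : (‖z‖/r + ‖w‖/r) • x₀ = (‖z‖/r) • x₀ + (‖w‖/r) • x₀ := add_smul _ _ _
    rw [e1, hadd _ _ (hball z _ (hnn z) (hnr z).le) (hball w _ (hnn w) (hnr w).le), e2,
      hadd _ _ (hKx _ (hnn z)) (hKx _ (hnn w))]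
    show _ = (F (z + (‖z‖/r) • x₀) - F ((‖z‖/r) • x₀)) + (F (w + (‖w‖/r) • x₀) - F ((‖w‖/r) • x₀))
    abel
  have tzero : t 0 = 0 := by
    have := tadd 0 0
    rw [add_zero] at this
    exact left_eq_add.1 this
  have tneg : ∀ z, t (-z) = - t z := by
    intro z
    have := tadd z (-z)
    rw [add_neg_cancel, tzero] at this
    exact (neg_eq_of_add_eq_zero_right this.symm).symm
  have tsmul0 : ∀ (c : ℝ) z, 0 ≤ c → t (c • z) = c • t z := by
    intro c z hc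
    have h1 : ‖c • z‖ ≤ (c * (‖z‖/r)) * r := by
      rw [norm_smul, Real.norm_of_nonneg hc, mul_assoc, ← hnr]
    rw [ht (c • z) (c * (‖z‖/r)) (mul_nonneg hc (hnn z)) h1, mul_smul, ← smul_add,
      h.smul _ _ hc, h.smul _ _ hc, ← smul_sub]
  have tsmul : ∀ (c : ℝ) z, t (c • z) = c • t z := by
    intro c z
    rcases le_total 0 c with hc | hc
    · exact tsmul0 c z hc
    · have := tsmul0 (-c) z (by linarith)
      rw [neg_smul, neg_smul, tneg] at this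
      exact neg_injective this
  let T : X →ₗ[ℝ] Y := { toFun := t, map_add' := tadd, map_smul' := fun c z => tsmul c z }
  have hT : ∀ y, ‖y‖ = φ y → F y = T y := by
    intro y hy
    show F y = F (y + (‖y‖/r) • x₀) - F ((‖y‖/r) • x₀)
    rw [hadd _ _ hy (hKx _ (hnn y))]; abel
  refine ⟨T, hT, ?_⟩
  intro u
  have h1 := hball' u (‖u‖/r') (by positivity) (by field_simp; exact le_refl _)
  set s := ‖u‖/r' with hs
  have hs0 : 0 ≤ s := by positivity
  refine ⟨F.symm (u + s • F x₀) - s • x₀, ?_⟩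
  have h2 : ‖F.symm (u + s • F x₀)‖ = φ (F.symm (u + s • F x₀)) := by
    rw [hfac, Equiv.apply_symm_apply]; exact h1
  rw [map_sub, map_smul, ← hT _ h2, ← hT _ hloc.self, Equiv.apply_symm_apply]
  abel

/-- Compatibility of the functional of one facet with the linear map of another one sharing
a point with it. -/
lemma compat {F : X ≃ Y} (h : SphIso F) {φ₁ φ₃ : X →L[ℝ] ℝ} {ψ₃ : Y →L[ℝ] ℝ} {T₁ : X →ₗ[ℝ] Y}
    {x₁ x₃ z : X} (hφ₁ : LocLin φ₁ x₁) (hx₃ : x₃ ≠ 0) (hφ₃ : LocLin φ₃ x₃)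
    (hψ₃ : LocLin ψ₃ (F x₃)) (hT₁ : ∀ y, ‖y‖ = φ₁ y → F y = T₁ y)
    (hz0 : z ≠ 0) (hz₁ : ‖z‖ = φ₁ z) (hz₃ : ‖z‖ = φ₃ z) : ∀ x, ψ₃ (T₁ x) = φ₃ x := by
  have hev := local_identity h hx₃ hz0 hφ₃ hψ₃ hz₃
  have hz : ψ₃ (T₁ z) = φ₃ z := by rw [← hT₁ z hz₁]; exact hev.self_of_nhds
  have hcone : ∀ u, ‖u‖ = φ₁ u → ψ₃ (T₁ u) = φ₃ u := by
    intro u hu
    have hc : Tendsto (fun t : ℝ => z + t • u) (𝓝[>] 0) (𝓝 z) := by
      have : Continuous (fun t : ℝ => z + t • u) := by fun_prop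
      have h0 := (this.tendsto 0).mono_left (nhdsWithin_le_nhds (s := Ioi 0))
      simpa using h0
    obtain ⟨t, ht1, ht0⟩ := ((hc.eventually hev).and self_mem_nhdsWithin).exists
    have ht0' : (0:ℝ) < t := ht0
    have h1 := cone_add hφ₁.le hz₁ (cone_smul hu ht0'.le)
    rw [hT₁ _ h1, map_add, map_add, map_add, map_smul, map_smul, map_smul, hz, smul_eq_mul,
      smul_eq_mul] at ht1
    have : t * ψ₃ (T₁ u) = t * φ₃ u := by linarith
    exact mul_left_cancel₀ ht0'.ne' this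
  intro x
  obtain ⟨r, hr, hball⟩ := hφ₁.exists_ball
  have h1 := hball x (‖x‖/r) (by positivity) (by field_simp; exact le_refl _)
  have h2 := hcone _ h1
  have h3 := hcone _ hφ₁.self
  rw [map_add, map_add, map_add, map_smul, map_smul, map_smul, h3] at h2
  linarith

/-- One-sided covering of directions by facets. -/
def Star (X : Type*) [NormedAddCommGroup X] [NormedSpace ℝ X] : Prop :=
  ∀ z y : X, z ≠ 0 → ∃ φ : X →L[ℝ] ℝ, Fac φ ∧ ∃ ε : ℝ, 0 < ε ∧
    ∀ t ∈ Icc (0:ℝ) ε, ‖z + t • y‖ = φ (z + t • y)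

/-- Two facets with a common point have the same linear map. -/
lemma linear_unique {F : X ≃ Y} (h : SphIso F) (hX : Star X) {φ₁ φ₂ : X →L[ℝ] ℝ}
    {T₁ T₂ : X →ₗ[ℝ] Y} (hφ₁ : Fac φ₁) (hφ₂ : Fac φ₂)
    (hT₁ : ∀ y, ‖y‖ = φ₁ y → F y = T₁ y) (hT₂ : ∀ y, ‖y‖ = φ₂ y → F y = T₂ y)
    (hs : Function.Surjective T₁) {z : X} (hz0 : z ≠ 0) (hz₁ : ‖z‖ = φ₁ z) (hz₂ : ‖z‖ = φ₂ z) :
    T₁ = T₂ := by
  obtain ⟨x₁, hx₁, hl₁⟩ := hφ₁
  obtain ⟨x₂, hx₂, hl₂⟩ := hφ₂
  by_contra hne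
  obtain ⟨y, hy⟩ : ∃ y, T₁ y ≠ T₂ y := by
    by_contra hcon
    push Not at hcon
    exact hne (LinearMap.ext hcon)
  obtain ⟨w, hw⟩ := hs (T₂ y - T₁ y)
  have hw0 : w ≠ 0 := by
    intro h0
    rw [h0, map_zero] at hw
    exact hy (sub_eq_zero.1 hw.symm).symm
  have star : ∀ z' : X, z' ≠ 0 → ‖z'‖ = φ₁ z' → ‖z'‖ = φ₂ z' → ∀ φ₃ : X →L[ℝ] ℝ, Fac φ₃ →
      ‖z'‖ = φ₃ z' → φ₃ w = 0 := by
    intro z' hz' h1 h2 φ₃ hφ₃ h3
    obtain ⟨x₃, hx₃, hl₃⟩ := hφ₃
    obtain ⟨ψ₃, -, hψ₃⟩ := exists_locLin_image h hx₃ hl₃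
    have c1 := compat h hl₁ hx₃ hl₃ hψ₃ hT₁ hz' h1 h3
    have c2 := compat h hl₂ hx₃ hl₃ hψ₃ hT₂ hz' h2 h3
    rw [← c1 w, hw, map_sub, c1, c2, sub_self]
  have hφ₁w : φ₁ w = 0 := star z hz0 hz₁ hz₂ φ₁ ⟨x₁, hx₁, hl₁⟩ hz₁
  have hφ₂w : φ₂ w = 0 := star z hz0 hz₁ hz₂ φ₂ ⟨x₂, hx₂, hl₂⟩ hz₂
  set b : ℝ := (2 * ‖z‖ + 1) / ‖w‖ with hb
  have hwn : 0 < ‖w‖ := norm_pos_iff.2 hw0
  have hb0 : 0 ≤ b := by positivity
  have hsub : Icc (0:ℝ) b ⊆ {t : ℝ | ‖z + t • w‖ = ‖z‖} := by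
    apply IsClosed.Icc_subset_of_forall_exists_gt
    · apply IsClosed.inter _ isClosed_Icc
      exact isClosed_eq (by fun_prop) continuous_const
    · simp
    · intro t ht y hyt
      have ht1 : ‖z + t • w‖ = ‖z‖ := ht.1
      have ht2 := ht.2
      have hz'0 : z + t • w ≠ 0 := by
        intro h0
        rw [h0, norm_zero] at ht1
        exact hz0 (norm_eq_zero.1 ht1.symm)
      have k1 : ‖z + t • w‖ = φ₁ (z + t • w) := by
        rw [ht1, map_add, map_smul, hφ₁w, smul_zero, add_zero, hz₁]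
      have k2 : ‖z + t • w‖ = φ₂ (z + t • w) := by
        rw [ht1, map_add, map_smul, hφ₂w, smul_zero, add_zero, hz₂]
      obtain ⟨φ₃, hφ₃, ε, hε, hεs⟩ := hX (z + t • w) w hz'0
      have k3 : ‖z + t • w‖ = φ₃ (z + t • w) := by
        have := hεs 0 ⟨le_refl _, hε.le⟩
        simpa using this
      have k4 : φ₃ w = 0 := star _ hz'0 k1 k2 φ₃ hφ₃ k3
      have hyt' : t < y := hyt
      refine ⟨t + min ε (y - t), ?_, ?_, ?_⟩
      · have hm : min ε (y - t) ∈ Icc (0:ℝ) ε := ⟨le_min hε.le (by linarith), min_le_left _ _⟩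
        have := hεs _ hm
        show ‖z + (t + min ε (y - t)) • w‖ = ‖z‖
        have e : z + (t + min ε (y - t)) • w = z + t • w + min ε (y - t) • w := by
          rw [add_smul]; abel
        rw [e, this, map_add, ← k3, map_smul, k4, smul_zero, add_zero, ht1]
      · have : 0 < min ε (y - t) := lt_min hε (by linarith)
        linarith
      · have : min ε (y - t) ≤ y - t := min_le_right _ _
        linarith
  have hbm : ‖z + b • w‖ = ‖z‖ := hsub ⟨hb0, le_refl _⟩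
  have h1 : ‖b • w‖ = 2 * ‖z‖ + 1 := by
    rw [norm_smul, Real.norm_of_nonneg hb0, hb]; field_simp
  have h2 : ‖b • w‖ ≤ ‖z + b • w‖ + ‖z‖ := by
    have : b • w = (z + b • w) - z := by abel
    rw [this]; 
    calc ‖z + b • w - z‖ ≤ ‖z + b • w‖ + ‖z‖ := norm_sub_le _ _
      _ = ‖z + ((z + b • w) - z)‖ + ‖z‖ := by rw [add_sub_cancel]
  linarith [norm_nonneg z]

/-- Additivity when the space has the covering property `Star`. -/
theorem additive_of_star {F : X ≃ Y} (h : SphIso F) (hX : Star X) (x y : X) :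
    F (x + y) = F x + F y := by
  classical
  let P : X → (X →ₗ[ℝ] Y) → Prop := fun z T => ∃ φ : X →L[ℝ] ℝ, Fac φ ∧ ‖z‖ = φ z ∧
    (∀ y, ‖y‖ = φ y → F y = T y) ∧ Function.Surjective T
  have hPu : ∀ z : X, z ≠ 0 → ∀ T T', P z T → P z T' → T = T' := by
    rintro z hz T T' ⟨φ, h1, h2, h3, h4⟩ ⟨φ', h1', h2', h3', h4'⟩
    exact linear_unique h hX h1 h1' h3 h3' h4 hz h2 h2'
  have hPev : ∀ z : X, z ≠ 0 → ∀ T, P z T → ∀ v : X, ∀ᶠ t : ℝ in 𝓝 0, P (z + t • v) T := by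
    intro z hz T hT v
    obtain ⟨φ₁, hφ₁, ε₁, hε₁, h1⟩ := hX z v hz
    obtain ⟨φ₂, hφ₂, ε₂, hε₂, h2⟩ := hX z (-v) hz
    obtain ⟨T₁, hT₁, hs₁⟩ := exists_linear h hφ₁
    obtain ⟨T₂, hT₂, hs₂⟩ := exists_linear h hφ₂
    have e1 : T₁ = T := hPu z hz _ _ ⟨φ₁, hφ₁, by simpa using h1 0 ⟨le_refl _, hε₁.le⟩, hT₁, hs₁⟩ hT
    have e2 : T₂ = T := hPu z hz _ _ ⟨φ₂, hφ₂, by simpa using h2 0 ⟨le_refl _, hε₂.le⟩, hT₂, hs₂⟩ hT
    subst e1
    have hn : Ioo (-ε₂) ε₁ ∈ 𝓝 (0:ℝ) := Ioo_mem_nhds (by linarith) hε₁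
    filter_upwards [hn] with t ht
    rcases le_total 0 t with h0 | h0
    · exact ⟨φ₁, hφ₁, h1 t ⟨h0, ht.2.le⟩, hT₁, hs₁⟩
    · refine ⟨φ₂, hφ₂, ?_, by rw [← e2]; exact hT₂, hs₁⟩
      have := h2 (-t) ⟨by linarith, by linarith [ht.1]⟩
      simpa using this
  have hPex : ∀ z : X, z ≠ 0 → ∃ T, P z T := by
    intro z hz
    obtain ⟨φ, hφ, ε, hε, h1⟩ := hX z 0 hz
    obtain ⟨T, hT, hs⟩ := exists_linear h hφ
    exact ⟨T, φ, hφ, by simpa using h1 0 ⟨le_refl _, hε.le⟩, hT, hs⟩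
  have hPF : ∀ z T, P z T → F z = T z := by
    rintro z T ⟨φ, h1, h2, h3, h4⟩
    exact h3 z h2
  -- independent pairs
  have hind : ∀ x y : X, (∀ t : ℝ, x + t • (y - x) ≠ 0) → F (x + y) = F x + F y := by
    intro x y hxy
    choose τ hτ using fun t : ℝ => hPex _ (hxy t)
    have hlc : IsLocallyConstant τ := by
      rw [IsLocallyConstant.iff_eventually_eq]
      intro t₀
      have h1 := hPev _ (hxy t₀) _ (hτ t₀) (y - x)
      have h2 : Tendsto (fun t : ℝ => t - t₀) (𝓝 t₀) (𝓝 0) := by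
        have : Continuous (fun t : ℝ => t - t₀) := by fun_prop
        have h0 := this.tendsto t₀
        simpa using h0
      filter_upwards [h2.eventually h1] with t ht
      have e : x + t₀ • (y - x) + (t - t₀) • (y - x) = x + t • (y - x) := by
        rw [sub_smul]; abel
      rw [e] at ht
      exact hPu _ (hxy t) _ _ (hτ t) ht
    have e01 : τ 1 = τ 0 := hlc.apply_eq_of_preconnectedSpace _ _
    have e0h : τ (1/2) = τ 0 := hlc.apply_eq_of_preconnectedSpace _ _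
    have k0 := hPF _ _ (hτ 0)
    have k1 := hPF _ _ (hτ 1)
    have kh := hPF _ _ (hτ (1/2))
    rw [e01] at k1
    rw [e0h] at kh
    have s0 : x + (0:ℝ) • (y - x) = x := by simp
    have s1 : x + (1:ℝ) • (y - x) = y := by simp
    have sh : x + (1/2 : ℝ) • (y - x) = (1/2 : ℝ) • (x + y) := by module
    rw [s0] at k0
    rw [s1] at k1
    rw [sh, h.smul _ _ (by norm_num), map_smul] at kh
    have kh' : F (x + y) = (τ 0) (x + y) := by
      have := congrArg (fun v => (2:ℝ) • v) kh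
      simp only [smul_smul] at this
      norm_num at this
      exact this.trans ((τ 0).map_add x y).symm
    rw [kh', map_add, k0, k1]
  have hdep : ∀ x y : X, x ≠ 0 → (¬ ∃ c : ℝ, y = c • x) → ∀ t : ℝ, x + t • (y - x) ≠ 0 := by
    intro x y hx hc t h0
    apply hc
    by_cases ht : t = 0
    · subst ht; rw [zero_smul, add_zero] at h0; exact absurd h0 hx
    · refine ⟨(t - 1)/t, ?_⟩
      have h1 : t • y = (t - 1) • x := by
        have : t • y - (t - 1) • x = x + t • (y - x) := by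
          rw [smul_sub, sub_smul, one_smul]; abel
        rw [← sub_eq_zero, this, h0]
      rw [div_eq_inv_mul, mul_smul, ← h1, smul_smul, inv_mul_cancel₀ ht, one_smul]
  -- oddness
  have hodd : ∀ x : X, F (-x) = - F x := by
    intro x
    by_cases hx : x = 0
    · subst hx; simp [h.map_zero]
    by_cases hv : ∃ v : X, ¬ ∃ c : ℝ, v = c • x
    · obtain ⟨v, hv⟩ := hv
      have a1 := hind x v (hdep x v hx hv)
      have hv0 : v ≠ 0 := by
        intro h0; exact hv ⟨0, by rw [h0, zero_smul]⟩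
      have hc2 : ¬ ∃ c : ℝ, (x + v) = c • (-x) := by
        rintro ⟨c, hc⟩
        apply hv
        refine ⟨-c - 1, ?_⟩
        have : v = c • (-x) - x := by rw [← hc]; abel
        rw [this, smul_neg, sub_smul, neg_smul, one_smul]
      have a2 := hind (-x) (x + v) (hdep (-x) (x + v) (neg_ne_zero.2 hx) hc2)
      have e : -x + (x + v) = v := by abel
      rw [e, a1] at a2
      have : F (-x) + F x = 0 := by
        have h3 : F (-x) + (F x + F v) = (F (-x) + F x) + F v := by abel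
        rw [h3] at a2
        exact (right_eq_add.1 a2)
      exact eq_neg_of_add_eq_zero_left this
    · push Not at hv
      obtain ⟨c, hc⟩ := hv (F.symm (- F x))
      have hn : ‖F.symm (- F x)‖ = ‖x‖ := by
        rw [h.symm.norm, norm_neg, h.norm]
      rw [hc, norm_smul] at hn
      have hxn : ‖x‖ ≠ 0 := by simpa using hx
      have hc1 : ‖c‖ = 1 := by
        have : ‖c‖ * ‖x‖ = 1 * ‖x‖ := by rw [hn, one_mul]
        exact mul_right_cancel₀ hxn this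
      rw [Real.norm_eq_abs] at hc1
      rcases (abs_eq (by norm_num : (0:ℝ) ≤ 1)).1 hc1 with h1 | h1
      · rw [h1, one_smul] at hc
        have := congrArg F hc
        rw [Equiv.apply_symm_apply] at this
        have h2 : ‖F x‖ = 0 := by
          have h3 : F x + F x = 0 := by
            nth_rewrite 1 [← this]; exact neg_add_cancel _
          have h4 : (2:ℝ) • F x = 0 := by rw [two_smul]; exact h3
          have h5 : F x = 0 := (smul_eq_zero.1 h4).resolve_left (by norm_num)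
          rw [h5, norm_zero]
        rw [h.norm] at h2
        exact absurd h2 hxn
      · rw [h1, neg_smul, one_smul] at hc
        have := congrArg F hc
        rw [Equiv.apply_symm_apply] at this
        exact this.symm
  have hsm : ∀ (a : ℝ) (x : X), F (a • x) = a • F x := by
    intro a x
    rcases le_total 0 a with ha | ha
    · exact h.smul a x ha
    · have : a • x = (-a) • (-x) := by rw [smul_neg, neg_smul, neg_neg]
      rw [this, h.smul _ _ (by linarith), hodd, smul_neg, neg_smul, neg_neg]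
  by_cases hx : x = 0
  · subst hx; rw [zero_add, h.map_zero, zero_add]
  by_cases hc : ∃ c : ℝ, y = c • x
  · obtain ⟨c, rfl⟩ := hc
    have : x + c • x = (1 + c) • x := by rw [add_smul, one_smul]
    rw [this, hsm, hsm, add_smul, one_smul]
  · exact hind x y (hdep x y hx hc)

end Vale.Agent.H11.Tingley
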