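import Vale.Agent.H11.Tingley4

set_option linter.unusedSectionVars false

open Filter Topology Set

namespace Vale.Agent.H11.Tingley

variable {X : Type*} [NormedAddCommGroup X] [NormedSpace ℝ X]

/-- One-sided affinity of the norm in every direction. -/
def KProp (X : Type*) [NormedAddCommGroup X] [NormedSpace ℝ X] : Prop :=
  ∀ z y : X, z ≠ 0 → ∃ c : ℝ, ∃ ε : ℝ, 0 < ε ∧ ∀ t ∈ Icc (0:ℝ) ε, ‖z + t • y‖ = ‖z‖ + t * c

lemma norm_line_convex (z y : X) {s t : ℝ} (hs : 0 ≤ s) (hst : s ≤ t) (ht : 0 < t) :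
    ‖z + s • y‖ ≤ (1 - s/t) * ‖z‖ + (s/t) * ‖z + t • y‖ := by
  have h1 : s/t ≤ 1 := by rw [div_le_one ht]; exact hst
  have h0 : 0 ≤ s/t := by positivity
  have e : z + s • y = (1 - s/t) • z + (s/t) • (z + t • y) := by
    rw [smul_add, smul_smul, div_mul_cancel₀ _ ht.ne', sub_smul, one_smul]; abel
  calc ‖z + s • y‖ = ‖(1 - s/t) • z + (s/t) • (z + t • y)‖ := by rw [← e]
    _ ≤ ‖(1 - s/t) • z‖ + ‖(s/t) • (z + t • y)‖ := norm_add_le _ _
    _ = _ := by rw [norm_smul, norm_smul, Real.norm_of_nonneg (by linarith), Real.norm_of_nonneg h0]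

/-- Density of points at which the norm is two-sided affine in the direction `y`, quantitatively. -/
lemma dense_dir (hK : KProp X) [Nontrivial X] (y : X) (m : ℕ) :
    Dense {z : X | ∃ t : ℝ, 0 < t ∧ ‖z + t • y‖ + ‖z - t • y‖ - 2 * ‖z‖ < t / (m + 1)} := by
  intro z₀
  rw [Metric.mem_closure_iff]
  intro ε hε
  -- first move to a nonzero point
  obtain ⟨z, hz0, hz⟩ : ∃ z : X, z ≠ 0 ∧ dist z₀ z < ε/2 := by
    by_cases h0 : z₀ = 0
    · obtain ⟨v, hv⟩ := exists_ne (0:X)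
      have hvn : 0 < ‖v‖ := norm_pos_iff.2 hv
      refine ⟨(ε/4/‖v‖) • v, ?_, ?_⟩
      · exact smul_ne_zero (by positivity) hv
      · rw [h0, dist_zero_left, norm_smul, Real.norm_of_nonneg (by positivity)]
        have : ε / 4 / ‖v‖ * ‖v‖ = ε/4 := by field_simp
        rw [this]; linarith
    · exact ⟨z₀, h0, by rw [dist_self]; positivity⟩
  obtain ⟨c, δ, hδ, hlin⟩ := hK z y hz0
  set s : ℝ := min (δ/2) (ε/4/(‖y‖+1)) with hs
  have hs0 : 0 < s := lt_min (by positivity) (by positivity)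
  have hs1 : 2 * s ≤ δ := by
    have := min_le_left (δ/2) (ε/4/(‖y‖+1)); linarith
  refine ⟨z + s • y, ⟨s, hs0, ?_⟩, ?_⟩
  · have e1 : z + s • y + s • y = z + (2*s) • y := by rw [two_mul, add_smul]; abel
    have e2 : z + s • y - s • y = z + (0:ℝ) • y := by rw [zero_smul]; abel
    rw [e1, e2, hlin _ ⟨by positivity, hs1⟩, hlin 0 ⟨le_refl _, hδ.le⟩, hlin s ⟨hs0.le, by linarith⟩]
    have : 0 < s / ((m:ℝ) + 1) := by positivity
    linarith
  · calc dist z₀ (z + s • y) ≤ dist z₀ z + dist z (z + s • y) := dist_triangle _ _ _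
      _ < ε/2 + ε/2 := by
        apply add_lt_add hz
        rw [dist_eq_norm]
        have : z - (z + s • y) = -(s • y) := by abel
        rw [this, norm_neg, norm_smul, Real.norm_of_nonneg hs0.le]
        have h2 : s ≤ ε/4/(‖y‖+1) := min_le_right _ _
        have h3 : s * ‖y‖ ≤ ε/4/(‖y‖+1) * (‖y‖ + 1) := by
          apply mul_le_mul h2 (by linarith [norm_nonneg y]) (norm_nonneg _) (by positivity)
        have h4 : ε/4/(‖y‖+1) * (‖y‖ + 1) = ε/4 := by field_simp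
        linarith
      _ = ε := by ring

lemma isOpen_dir (y : X) (m : ℕ) :
    IsOpen {z : X | ∃ t : ℝ, 0 < t ∧ ‖z + t • y‖ + ‖z - t • y‖ - 2 * ‖z‖ < t / (m + 1)} := by
  have : {z : X | ∃ t : ℝ, 0 < t ∧ ‖z + t • y‖ + ‖z - t • y‖ - 2 * ‖z‖ < t / (m + 1)} =
      ⋃ t : {t : ℝ // 0 < t}, {z : X | ‖z + (t:ℝ) • y‖ + ‖z - (t:ℝ) • y‖ - 2 * ‖z‖ < t / (m + 1)} := by
    ext z
    simp only [mem_ofPred_eq, mem_iUnion, Subtype.exists, exists_prop]
  rw [this]
  apply isOpen_iUnion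
  intro t
  apply isOpen_lt <;> fun_prop

/-- At a point of differentiability the norm is locally linear (Baire). -/
lemma locLin_of_smooth (hK : KProp X) [CompleteSpace X] {z : X} (hz : z ≠ 0)
    (hsm : ∀ y : X, ∃ c : ℝ, ∃ ε : ℝ, 0 < ε ∧ ∀ t ∈ Icc (-ε) ε, ‖z + t • y‖ = ‖z‖ + t * c) :
    ∃ φ : X →L[ℝ] ℝ, LocLin φ z := by
  obtain ⟨φ, hφ1, hφ⟩ := exists_dual_vector ℝ z (by simpa using hz)
  have hφz : φ z = ‖z‖ := by simpa using hφ
  have hφle : ∀ y, φ y ≤ ‖y‖ := by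
    intro y
    calc φ y ≤ ‖φ y‖ := le_abs_self _
      _ ≤ ‖φ‖ * ‖y‖ := φ.le_opNorm y
      _ = ‖y‖ := by rw [hφ1, one_mul]
  have hlin : ∀ y : X, ∃ ε : ℝ, 0 < ε ∧ ∀ t ∈ Icc (-ε) ε, ‖z + t • y‖ = φ (z + t • y) := by
    intro y
    obtain ⟨c, ε, hε, hc⟩ := hsm y
    refine ⟨ε, hε, ?_⟩
    have hcφ : c = φ y := by
      have h1 := hφle (z + ε • y)
      have h2 := hφle (z + (-ε) • y)
      rw [hc ε ⟨by linarith, le_refl _⟩, map_add, map_smul, hφz, smul_eq_mul] at h1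
      rw [hc (-ε) ⟨le_refl _, by linarith⟩, map_add, map_smul, hφz, smul_eq_mul] at h2
      have h3 : ε * φ y ≤ ε * c := by linarith
      have h4 : ε * c ≤ ε * φ y := by linarith
      exact le_antisymm (le_of_mul_le_mul_left h4 hε) (le_of_mul_le_mul_left h3 hε)
    intro t ht
    rw [hc t ht, map_add, map_smul, hφz, hcφ, smul_eq_mul]
  let A : Set X := {y | ‖z + y‖ = φ (z + y) ∧ ‖z - y‖ = φ (z - y)}
  have hAc : IsClosed A := by
    apply IsClosed.inter
    · exact isClosed_eq (by fun_prop) (by fun_prop)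
    · exact isClosed_eq (by fun_prop) (by fun_prop)
  have hconv : ∀ a b : X, ‖z + a‖ = φ (z + a) → ‖z + b‖ = φ (z + b) → ∀ t : ℝ, 0 ≤ t → t ≤ 1 →
      ‖z + ((1 - t) • a + t • b)‖ = φ (z + ((1 - t) • a + t • b)) := by
    intro a b ha hb t ht0 ht1
    apply le_antisymm
    · have e : z + ((1 - t) • a + t • b) = (1 - t) • (z + a) + t • (z + b) := by module
      rw [e]
      calc ‖(1 - t) • (z + a) + t • (z + b)‖ ≤ ‖(1 - t) • (z + a)‖ + ‖t • (z + b)‖ :=
            norm_add_le _ _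
        _ = (1 - t) * φ (z + a) + t * φ (z + b) := by
          rw [norm_smul, norm_smul, Real.norm_of_nonneg (by linarith), Real.norm_of_nonneg ht0,
            ha, hb]
        _ = φ ((1 - t) • (z + a) + t • (z + b)) := by
          rw [φ.map_add ((1 - t) • (z + a)), φ.map_smul, φ.map_smul, smul_eq_mul, smul_eq_mul]
    · exact hφle _
  -- the dilates of `A` cover the space
  have hcov : ⋃ n : ℕ, {y : X | ((n:ℝ) + 1)⁻¹ • y ∈ A} = univ := by
    apply eq_univ_of_forall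
    intro y
    obtain ⟨ε, hε, h1⟩ := hlin y
    obtain ⟨n, hn⟩ := exists_nat_gt (1/ε)
    rw [mem_iUnion]
    refine ⟨n, ?_⟩
    have hn1 : (0:ℝ) < (n:ℝ) + 1 := by positivity
    have h2 : ((n:ℝ) + 1)⁻¹ ≤ ε := by
      rw [inv_le_comm₀ hn1 hε, ← one_div]; linarith
    have h3 : 0 < ((n:ℝ) + 1)⁻¹ := by positivity
    refine ⟨h1 _ ⟨by linarith, h2⟩, ?_⟩
    have := h1 (-((n:ℝ) + 1)⁻¹) ⟨by linarith, by linarith⟩
    rw [neg_smul, ← sub_eq_add_neg] at this
    exact this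
  obtain ⟨n, hn⟩ := nonempty_interior_of_iUnion_of_closed (fun n : ℕ =>
    hAc.preimage (by fun_prop : Continuous (fun y : X => ((n:ℝ) + 1)⁻¹ • y))) hcov
  obtain ⟨y₀, hy₀⟩ := hn
  rw [mem_interior_iff_mem_nhds, Metric.mem_nhds_iff] at hy₀
  obtain ⟨r, hr, hball⟩ := hy₀
  refine ⟨φ, ?_⟩
  rw [LocLin, Metric.eventually_nhds_iff]
  set k : ℝ := ((n:ℝ) + 1)⁻¹ with hk
  have hk0 : 0 < k := by positivity
  refine ⟨k * r, by positivity, ?_⟩
  intro y hy
  rw [dist_eq_norm] at hy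
  -- y - z = (1/2) (k (y₀ + v)) + (1/2)(-(k (y₀ - v))) with v = k⁻¹ (y - z)
  set v : X := k⁻¹ • (y - z) with hv
  have hvn : ‖v‖ < r := by
    rw [hv, norm_smul, norm_inv, Real.norm_of_nonneg hk0.le, inv_mul_lt_iff₀ hk0]; exact hy
  have h1 : k • (y₀ + v) ∈ A := by
    apply hball
    rw [Metric.mem_ball, dist_eq_norm, add_sub_cancel_left]; exact hvn
  have h2 : k • (y₀ - v) ∈ A := by
    apply hball
    rw [Metric.mem_ball, dist_eq_norm, sub_sub_cancel_left, norm_neg]; exact hvn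
  have h3 : ‖z + -(k • (y₀ - v))‖ = φ (z + -(k • (y₀ - v))) := by
    rw [← sub_eq_add_neg]; exact h2.2
  have h4 := hconv _ _ h1.1 h3 (1/2) (by norm_num) (by norm_num)
  have e : z + ((1 - 1/2 : ℝ) • (k • (y₀ + v)) + (1/2 : ℝ) • (-(k • (y₀ - v)))) = y := by
    have : k • v = y - z := by rw [hv, smul_smul, mul_inv_cancel₀ hk0.ne', one_smul]
    have e2 : ((1 - 1/2 : ℝ) • (k • (y₀ + v)) + (1/2 : ℝ) • (-(k • (y₀ - v)))) = k • v := by
      module
    rw [e2, this]; abel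
  rw [e] at h4
  exact h4

/-- In a separable Banach space with one-sided affine norm, locally linear points are dense. -/
lemma dense_locLin (hK : KProp X) [CompleteSpace X] [TopologicalSpace.SeparableSpace X]
    [Nontrivial X] : Dense {z : X | ∃ φ : X →L[ℝ] ℝ, LocLin φ z} := by
  obtain ⟨D, hDc, hDd⟩ := TopologicalSpace.exists_countable_dense X
  have : Countable D := hDc.to_subtype
  have hB : Dense (⋂ p : D × ℕ, {z : X | ∃ t : ℝ, 0 < t ∧
      ‖z + t • (p.1 : X)‖ + ‖z - t • (p.1 : X)‖ - 2 * ‖z‖ < t / (p.2 + 1)}) :=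
    dense_iInter_of_isOpen (fun p => isOpen_dir _ _) (fun p => dense_dir hK _ _)
  -- also avoid zero
  have hB2 : Dense ((⋂ p : D × ℕ, {z : X | ∃ t : ℝ, 0 < t ∧
      ‖z + t • (p.1 : X)‖ + ‖z - t • (p.1 : X)‖ - 2 * ‖z‖ < t / (p.2 + 1)}) ∩ {z | z ≠ 0}) := by
    apply Dense.inter_of_isOpen_right hB
    · exact dense_compl_singleton (0:X)
    · exact isOpen_compl_singleton
  refine hB2.mono ?_
  rintro z ⟨hz, hz0⟩
  have hz0' : z ≠ 0 := hz0
  apply locLin_of_smooth hK hz0'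
  -- directional derivatives
  choose c ε hε hc using fun y => hK z y hz0'
  -- the sum c y + c (-y) vanishes on D
  have hnn : ∀ y, 0 ≤ c y + c (-y) := by
    intro y
    set t := min (ε y) (ε (-y)) with ht
    have ht0 : 0 < t := lt_min (hε _) (hε _)
    have h1 := hc y t ⟨ht0.le, min_le_left _ _⟩
    have h2 := hc (-y) t ⟨ht0.le, min_le_right _ _⟩
    have h3 : 2 * ‖z‖ ≤ ‖z + t • y‖ + ‖z + t • (-y)‖ := by
      have e : (2:ℝ) • z = (z + t • y) + (z + t • (-y)) := by module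
      calc 2 * ‖z‖ = ‖(2:ℝ) • z‖ := by rw [norm_smul, Real.norm_of_nonneg (by norm_num)]
        _ ≤ _ := by rw [e]; exact norm_add_le _ _
    rw [h1, h2] at h3
    have : 0 ≤ t * (c y + c (-y)) := by linarith
    exact nonneg_of_mul_nonneg_right this ht0
  have hcD : ∀ y ∈ D, c y + c (-y) = 0 := by
    intro y hy
    apply le_antisymm _ (hnn y)
    apply le_of_forall_pos_le_add
    intro δ hδ
    obtain ⟨m, hm⟩ := exists_nat_gt (1/δ)
    have hzm := mem_iInter.1 hz (⟨y, hy⟩, m)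
    obtain ⟨t, ht0, ht⟩ := hzm
    simp only at ht
    -- compare with small s
    set s := min t (min (ε y) (ε (-y))) with hs
    have hs0 : 0 < s := lt_min ht0 (lt_min (hε _) (hε _))
    have hst : s ≤ t := min_le_left _ _
    have h1 := hc y s ⟨hs0.le, (min_le_right _ _).trans (min_le_left _ _)⟩
    have h2 := hc (-y) s ⟨hs0.le, (min_le_right _ _).trans (min_le_right _ _)⟩
    have k1 := norm_line_convex z y hs0.le hst ht0
    have k2 := norm_line_convex z (-y) hs0.le hst ht0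
    have e1 : z + t • (-y) = z - t • y := by rw [smul_neg, ← sub_eq_add_neg]
    rw [e1] at k2
    rw [h1] at k1
    rw [h2] at k2
    -- s (c y + c (-y)) ≤ (s/t)(…)
    have hq : 0 < s/t := by positivity
    have k3 : s * (c y + c (-y)) ≤ (s/t) * (‖z + t • y‖ + ‖z - t • y‖ - 2 * ‖z‖) := by
      have : (s/t) * (‖z + t • y‖ + ‖z - t • y‖ - 2 * ‖z‖) =
        ((1 - s/t) * ‖z‖ + (s/t) * ‖z + t • y‖) + ((1 - s/t) * ‖z‖ + (s/t) * ‖z - t • y‖)
          - 2 * ‖z‖ := by ring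
      rw [this]; linarith
    have k4 : (s/t) * (‖z + t • y‖ + ‖z - t • y‖ - 2 * ‖z‖) ≤ (s/t) * (t/(m+1)) :=
      mul_le_mul_of_nonneg_left ht.le hq.le
    have k5 : (s/t) * (t/((m:ℝ)+1)) = s * (1/((m:ℝ)+1)) := by field_simp
    have k6 : s * (c y + c (-y)) ≤ s * (1/((m:ℝ)+1)) := by linarith
    have k7 := le_of_mul_le_mul_left k6 hs0
    have k8 : 1/((m:ℝ)+1) ≤ δ := by
      rw [div_le_iff₀ (by positivity)]
      rw [div_lt_iff₀ hδ] at hm
      nlinarith
    linarith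
  -- Lipschitz dependence of `c`
  have hclip : ∀ y y', c y ≤ c y' + ‖y - y'‖ := by
    intro y y'
    set t := min (ε y) (ε y') with ht
    have ht0 : 0 < t := lt_min (hε _) (hε _)
    have h1 := hc y t ⟨ht0.le, min_le_left _ _⟩
    have h2 := hc y' t ⟨ht0.le, min_le_right _ _⟩
    have h3 : ‖z + t • y‖ ≤ ‖z + t • y'‖ + t * ‖y - y'‖ := by
      have e : z + t • y = (z + t • y') + t • (y - y') := by module
      calc ‖z + t • y‖ = ‖(z + t • y') + t • (y - y')‖ := by rw [← e]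
        _ ≤ ‖z + t • y'‖ + ‖t • (y - y')‖ := norm_add_le _ _
        _ = _ := by rw [norm_smul, Real.norm_of_nonneg ht0.le]
    rw [h1, h2] at h3
    have : t * c y ≤ t * (c y' + ‖y - y'‖) := by linarith
    exact le_of_mul_le_mul_left this ht0
  have hcall : ∀ y, c y + c (-y) = 0 := by
    intro y
    apply le_antisymm _ (hnn y)
    apply le_of_forall_pos_le_add
    intro δ hδ
    obtain ⟨y', hy', hd⟩ := Metric.mem_closure_iff.1 (hDd y) (δ/2) (by positivity)
    rw [dist_eq_norm] at hd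
    have h1 := hclip y y'
    have h2 := hclip (-y) (-y')
    have h3 : ‖-y - -y'‖ = ‖y - y'‖ := by rw [← norm_neg]; congr 1; abel
    rw [h3] at h2
    have := hcD y' hy'
    linarith
  intro y
  refine ⟨c y, min (ε y) (ε (-y)), lt_min (hε _) (hε _), ?_⟩
  intro t ht
  rcases le_total 0 t with h0 | h0
  · exact hc y t ⟨h0, ht.2.trans (min_le_left _ _)⟩
  · have h1 := hc (-y) (-t) ⟨by linarith, by
      have := min_le_right (ε y) (ε (-y)); linarith [ht.1]⟩
    have h2 : c (-y) = - c y := by linarith [hcall y]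
    rw [smul_neg, neg_smul, neg_neg, h2] at h1
    rw [h1]; ring

/-- Every direction at every point is covered one-sidedly by a facet. -/
theorem star_of_kprop (hK : KProp X) [CompleteSpace X] [TopologicalSpace.SeparableSpace X] :
    Star X := by
  intro z y hz
  have : Nontrivial X := ⟨z, 0, hz⟩
  -- Step 1: every nonzero point is in a facet
  have step1 : ∀ z : X, z ≠ 0 → ∃ φ : X →L[ℝ] ℝ, Fac φ ∧ ‖z‖ = φ z := by
    intro z hz
    -- sets on which the norm is affine for uniform time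
    let A : ℕ → Set X := fun n => {y | ∀ s ∈ Icc (0:ℝ) 1,
      ‖z + (s * ((n:ℝ)+1)⁻¹) • y‖ = (1 - s) * ‖z‖ + s * ‖z + ((n:ℝ)+1)⁻¹ • y‖}
    have hAc : ∀ n, IsClosed (A n) := by
      intro n
      have : A n = ⋂ s ∈ Icc (0:ℝ) 1, {y | ‖z + (s * ((n:ℝ)+1)⁻¹) • y‖ =
          (1 - s) * ‖z‖ + s * ‖z + ((n:ℝ)+1)⁻¹ • y‖} := by
        ext y; simp only [A, mem_ofPred_eq, mem_iInter]
      rw [this]
      apply isClosed_biInter
      intro s _
      exact isClosed_eq (by fun_prop) (by fun_prop)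
    have hAcov : ⋃ n, A n = univ := by
      apply eq_univ_of_forall
      intro y
      obtain ⟨c, ε, hε, hc⟩ := hK z y hz
      obtain ⟨n, hn⟩ := exists_nat_gt (1/ε)
      rw [mem_iUnion]
      refine ⟨n, ?_⟩
      have hn1 : (0:ℝ) < (n:ℝ) + 1 := by positivity
      have h2 : ((n:ℝ) + 1)⁻¹ ≤ ε := by
        rw [inv_le_comm₀ hn1 hε, ← one_div]; linarith
      have h3 : 0 < ((n:ℝ) + 1)⁻¹ := by positivity
      intro s hs
      rw [hc _ ⟨by nlinarith [hs.1], by nlinarith [hs.1, hs.2]⟩, hc _ ⟨h3.le, h2⟩]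
      ring
    obtain ⟨n, hn⟩ := nonempty_interior_of_iUnion_of_closed hAc hAcov
    set k : ℝ := ((n:ℝ)+1)⁻¹ with hk
    have hk0 : 0 < k := by positivity
    -- open set of points z + (k/2) y with y in the interior
    set V : Set X := (fun v : X => (k/2)⁻¹ • (v - z)) ⁻¹' (interior (A n)) ∩ {v | v ≠ 0} with hV
    have hVo : IsOpen V := by
      apply IsOpen.inter
      · exact isOpen_interior.preimage (by fun_prop)
      · exact isOpen_compl_singleton
    have hVne : V.Nonempty := by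
      obtain ⟨y₀, hy₀⟩ := hn
      have hdd : Dense {v : X | v ≠ 0} := dense_compl_singleton (0:X)
      have ho : IsOpen ((fun v : X => (k/2)⁻¹ • (v - z)) ⁻¹' (interior (A n))) :=
        isOpen_interior.preimage (by fun_prop)
      have hne : ((fun v : X => (k/2)⁻¹ • (v - z)) ⁻¹' (interior (A n))).Nonempty := by
        refine ⟨z + (k/2) • y₀, ?_⟩
        rw [mem_preimage, add_sub_cancel_left, smul_smul, inv_mul_cancel₀ (by positivity),
          one_smul]
        exact hy₀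
      obtain ⟨v, hv1, hv2⟩ := hdd.inter_open_nonempty _ ho hne
      exact ⟨v, hv1, hv2⟩
    obtain ⟨v, hvV, φ, hφ⟩ := (dense_locLin hK).inter_open_nonempty V hVo hVne
    have hv0 : v ≠ 0 := hvV.2
    refine ⟨φ, ⟨v, hv0, hφ⟩, ?_⟩
    set y := (k/2)⁻¹ • (v - z) with hy
    have hyA : y ∈ A n := interior_subset hvV.1
    have hvz : v = z + (k/2) • y := by
      rw [hy, smul_smul, mul_inv_cancel₀ (by positivity), one_smul]; abel
    -- on the segment from z to z + k y the norm is affine, and φ agrees near v = midpoint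
    obtain ⟨t, ht0, ht1, ht⟩ := hφ.exists_pos (z - v)
    have hself := hφ.self
    have e1 : v + t • (z - v) = z + (((1 - t)/2) * k) • y := by
      rw [hvz]; module
    have h1 := hyA ((1 - t)/2) ⟨by linarith, by linarith⟩
    have h2 := hyA (1/2) ⟨by norm_num, by norm_num⟩
    have e2 : (1/2 : ℝ) * k = k/2 := by ring
    rw [← hk] at h1 h2
    rw [e2, ← hvz] at h2
    rw [← e1] at h1
    rw [h1, map_add, map_smul, map_sub, smul_eq_mul, ← hself, h2] at ht
    have : t * ‖z‖ = t * φ z := by linarith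
    exact mul_left_cancel₀ ht0.ne' this
  -- Step 2: one-sided direction
  obtain ⟨c, ε, hε, hc⟩ := hK z y hz
  have hzn : 0 < ‖z‖ := norm_pos_iff.2 hz
  obtain ⟨δ, hδ0, hδε, hδ0'⟩ : ∃ δ : ℝ, 0 < δ ∧ δ ≤ ε ∧ δ * ‖y‖ < ‖z‖ := by
    refine ⟨min ε (‖z‖/(‖y‖+1)), lt_min hε (by positivity), min_le_left _ _, ?_⟩
    have h1 : min ε (‖z‖/(‖y‖+1)) ≤ ‖z‖/(‖y‖+1) := min_le_right _ _
    calc min ε (‖z‖/(‖y‖+1)) * ‖y‖ ≤ ‖z‖/(‖y‖+1) * ‖y‖ := by gcongr
      _ < ‖z‖/(‖y‖+1) * (‖y‖ + 1) := by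
        apply mul_lt_mul_of_pos_left (by linarith) (by positivity)
      _ = ‖z‖ := by field_simp
  have hm0 : z + (δ/2) • y ≠ 0 := by
    intro h0
    have : z = -((δ/2) • y) := eq_neg_of_add_eq_zero_left h0
    have h1 : ‖z‖ = (δ/2) * ‖y‖ := by
      rw [this, norm_neg, norm_smul, Real.norm_of_nonneg (by positivity)]
    nlinarith [norm_nonneg y]
  obtain ⟨φ, hφ, hφm⟩ := step1 _ hm0
  refine ⟨φ, hφ, δ, hδ0, ?_⟩
  obtain ⟨x₀, hx₀, hloc⟩ := hφ
  have hle := hloc.le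
  have a0 := hle z
  have a1 := hle (z + δ • y)
  rw [hc δ ⟨hδ0.le, hδε⟩, map_add, map_smul, smul_eq_mul] at a1
  rw [hc (δ/2) ⟨by positivity, by linarith⟩, map_add, map_smul, smul_eq_mul] at hφm
  -- φ z + (δ/2) φ y = ‖z‖ + (δ/2) c
  have b0 : φ z = ‖z‖ := by linarith
  have b1 : φ y = c := by
    have : (δ/2) * c = (δ/2) * φ y := by linarith
    exact (mul_left_cancel₀ (by positivity) this).symm
  intro t ht
  rw [hc t ⟨ht.1, ht.2.trans hδε⟩, map_add, map_smul, smul_eq_mul, b0, b1]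

end Vale.Agent.H11.Tingley
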