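import Vale.Agent.H11.Tingley5

set_option linter.unusedSectionVars false

open Filter Topology Set

namespace Vale.Agent.H11.Tingley

variable {X Y : Type*} [NormedAddCommGroup X] [NormedSpace ℝ X]
  [NormedAddCommGroup Y] [NormedSpace ℝ Y]

/-- Restriction of the problem to separable closed subspaces. -/
lemma exists_separable {F : X ≃ Y} (h : SphIso F) (x y : X) :
    ∃ (X₁ : Submodule ℝ X) (Y₁ : Submodule ℝ Y), x ∈ X₁ ∧ y ∈ X₁ ∧
      IsClosed (X₁ : Set X) ∧ IsClosed (Y₁ : Set Y) ∧
      TopologicalSpace.IsSeparable (X₁ : Set X) ∧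
      (∀ a ∈ X₁, F a ∈ Y₁) ∧ (∀ b ∈ Y₁, F.symm b ∈ X₁) := by
  have hF := h.continuous
  have hFs := h.symm.continuous
  let nY : Submodule ℝ X → Submodule ℝ Y := fun A => (Submodule.span ℝ (F '' A)).topologicalClosure
  let nX : Submodule ℝ Y → Submodule ℝ X :=
    fun B => (Submodule.span ℝ (F.symm '' B)).topologicalClosure
  let A : ℕ → Submodule ℝ X := fun n =>
    Nat.rec (Submodule.span ℝ {x, y}).topologicalClosure (fun _ A => nX (nY A)) n
  have hA0 : A 0 = (Submodule.span ℝ {x, y}).topologicalClosure := rfl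
  have hAs : ∀ n, A (n+1) = nX (nY (A n)) := fun n => rfl
  have m1 : ∀ (B : Submodule ℝ X) (a : X), a ∈ B → F a ∈ nY B := by
    intro B a ha
    exact Submodule.le_topologicalClosure _ (Submodule.subset_span (mem_image_of_mem _ ha))
  have m2 : ∀ (B : Submodule ℝ Y) (b : Y), b ∈ B → F.symm b ∈ nX B := by
    intro B b hb
    exact Submodule.le_topologicalClosure _ (Submodule.subset_span (mem_image_of_mem _ hb))
  have hAmono : Monotone A := by
    apply monotone_nat_of_le_succ
    intro n a ha
    rw [hAs]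
    have := m2 _ _ (m1 _ _ ha)
    rwa [Equiv.symm_apply_apply] at this
  have hnYmono : ∀ B B' : Submodule ℝ X, B ≤ B' → nY B ≤ nY B' := by
    intro B B' hBB
    exact Submodule.topologicalClosure_mono (Submodule.span_mono (image_mono hBB))
  have hBmono : Monotone (fun n => nY (A n)) := fun n m hnm => hnYmono _ _ (hAmono hnm)
  have hsep : ∀ n, TopologicalSpace.IsSeparable (SetLike.coe (A n)) := by
    intro n
    induction n with
    | zero =>
      rw [hA0, Submodule.topologicalClosure_coe]
      exact ((Set.Finite.isSeparable (by simp)).span).closure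
    | succ n ih =>
      rw [hAs]
      simp only [nX, nY, Submodule.topologicalClosure_coe]
      apply TopologicalSpace.IsSeparable.closure
      apply TopologicalSpace.IsSeparable.span
      apply TopologicalSpace.IsSeparable.image _ hFs
      apply TopologicalSpace.IsSeparable.closure
      apply TopologicalSpace.IsSeparable.span
      exact ih.image hF
  have hdirA : Directed (· ≤ ·) A := hAmono.directed_le
  have hdirB : Directed (· ≤ ·) (fun n => nY (A n)) := hBmono.directed_le
  refine ⟨(⨆ n, A n).topologicalClosure, (⨆ n, nY (A n)).topologicalClosure, ?_, ?_, ?_, ?_, ?_,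
    ?_, ?_⟩
  · apply Submodule.le_topologicalClosure
    apply (le_iSup A 0)
    rw [hA0]
    exact Submodule.le_topologicalClosure _ (Submodule.subset_span (by simp))
  · apply Submodule.le_topologicalClosure
    apply (le_iSup A 0)
    rw [hA0]
    exact Submodule.le_topologicalClosure _ (Submodule.subset_span (by simp))
  · exact Submodule.isClosed_topologicalClosure _
  · exact Submodule.isClosed_topologicalClosure _
  · rw [Submodule.topologicalClosure_coe, Submodule.coe_iSup_of_directed _ hdirA]
    exact (TopologicalSpace.IsSeparable.iUnion hsep).closure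
  · intro a ha
    have hcl : IsClosed (F ⁻¹' ((⨆ n, nY (A n)).topologicalClosure : Set Y)) :=
      (Submodule.isClosed_topologicalClosure _).preimage hF
    have hsub : ((⨆ n, A n : Submodule ℝ X) : Set X) ⊆
        F ⁻¹' ((⨆ n, nY (A n)).topologicalClosure : Set Y) := by
      rw [Submodule.coe_iSup_of_directed _ hdirA]
      intro a ha
      rw [mem_iUnion] at ha
      obtain ⟨n, hn⟩ := ha
      exact Submodule.le_topologicalClosure _ ((le_iSup (fun n => nY (A n)) n) (m1 _ _ hn))
    have := closure_minimal hsub hcl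
    rw [← Submodule.topologicalClosure_coe] at this
    exact this ha
  · intro b hb
    have hcl : IsClosed (F.symm ⁻¹' ((⨆ n, A n).topologicalClosure : Set X)) :=
      (Submodule.isClosed_topologicalClosure _).preimage hFs
    have hsub : ((⨆ n, nY (A n) : Submodule ℝ Y) : Set Y) ⊆
        F.symm ⁻¹' ((⨆ n, A n).topologicalClosure : Set X) := by
      rw [Submodule.coe_iSup_of_directed _ hdirB]
      intro b hb
      rw [mem_iUnion] at hb
      obtain ⟨n, hn⟩ := hb
      have := m2 _ _ hn
      rw [← hAs] at this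
      exact Submodule.le_topologicalClosure _ ((le_iSup A (n+1)) this)
    have := closure_minimal hsub hcl
    rw [← Submodule.topologicalClosure_coe] at this
    exact this hb

/-- Restriction of `F` to invariant subspaces. -/
def restr (F : X ≃ Y) (X₁ : Submodule ℝ X) (Y₁ : Submodule ℝ Y) (h1 : ∀ a ∈ X₁, F a ∈ Y₁)
    (h2 : ∀ b ∈ Y₁, F.symm b ∈ X₁) : X₁ ≃ Y₁ where
  toFun a := ⟨F a, h1 _ a.2⟩
  invFun b := ⟨F.symm b, h2 _ b.2⟩
  left_inv a := by ext; simp
  right_inv b := by ext; simp

lemma SphIso.restr {F : X ≃ Y} (h : SphIso F) {X₁ : Submodule ℝ X} {Y₁ : Submodule ℝ Y}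
    (h1 : ∀ a ∈ X₁, F a ∈ Y₁) (h2 : ∀ b ∈ Y₁, F.symm b ∈ X₁) :
    SphIso (Tingley.restr F X₁ Y₁ h1 h2) where
  smul t x ht := by
    ext
    exact h.smul t x ht
  norm x := h.norm x
  dist1 x y hx hy := h.dist1 x y hx hy

lemma KProp.sub (hK : KProp X) (X₁ : Submodule ℝ X) : KProp X₁ := by
  intro z y hz
  have hz' : (z : X) ≠ 0 := by simpa using hz
  obtain ⟨c, ε, hε, hc⟩ := hK z y hz'
  exact ⟨c, ε, hε, fun t ht => hc t ht⟩

/-- Additivity in general. -/
theorem additive_of_kprop {F : X ≃ Y} (h : SphIso F) [CompleteSpace X] (hK : KProp X) (x y : X) :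
    F (x + y) = F x + F y := by
  obtain ⟨X₁, Y₁, hx, hy, hc, -, hs, h1, h2⟩ := exists_separable h x y
  have : CompleteSpace X₁ := hc.completeSpace_coe
  have : TopologicalSpace.SeparableSpace X₁ := hs.separableSpace
  have key := additive_of_star (h.restr h1 h2) (star_of_kprop (hK.sub X₁)) ⟨x, hx⟩ ⟨y, hy⟩
  exact congrArg Subtype.val key

/-- Every two-dimensional section of the unit ball is a polygon, i.e. a finite intersection of
half-planes. -/
def PolygonalSections (X : Type*) [NormedAddCommGroup X] [NormedSpace ℝ X] : Prop :=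
  ∀ V : Submodule ℝ X, Module.finrank ℝ V = 2 →
    ∃ s : Finset (V →ₗ[ℝ] ℝ), ∀ v : V, ‖v‖ ≤ 1 ↔ ∀ φ ∈ s, φ v ≤ 1

lemma kprop_of_polygonal (hX : PolygonalSections X) : KProp X := by
  classical
  intro z y hz
  have hzn : 0 < ‖z‖ := norm_pos_iff.2 hz
  by_cases hdep : ∃ c : ℝ, y = c • z
  · obtain ⟨c, rfl⟩ := hdep
    refine ⟨c * ‖z‖, 1/(|c|+1), by positivity, ?_⟩
    intro t ht
    have h1 : 0 ≤ 1 + t * c := by
      have h2 : |t * c| ≤ 1 := by
        rw [abs_mul, abs_of_nonneg ht.1]
        calc t * |c| ≤ 1/(|c|+1) * |c| := by gcongr; exact ht.2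
          _ ≤ 1 := by
            rw [one_div, inv_mul_le_iff₀ (by positivity)]; linarith
      have := neg_abs_le (t * c)
      linarith
    have e : z + t • (c • z) = (1 + t * c) • z := by rw [smul_smul, add_smul, one_smul]
    rw [e, norm_smul, Real.norm_of_nonneg h1]; ring
  · -- independent
    have hli : LinearIndependent ℝ ![z, y] := by
      rw [LinearIndependent.pair_iff]
      intro a b hab
      have hb : b = 0 := by
        by_contra hb
        apply hdep
        refine ⟨-(b⁻¹ * a), ?_⟩
        have : b • y = -(a • z) := by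
          rw [add_comm] at hab; exact eq_neg_of_add_eq_zero_left hab
        calc y = b⁻¹ • (b • y) := by rw [smul_smul, inv_mul_cancel₀ hb, one_smul]
          _ = -(b⁻¹ * a) • z := by rw [this, smul_neg, smul_smul, neg_smul]
      subst hb
      rw [zero_smul, add_zero] at hab
      exact ⟨(smul_eq_zero.1 hab).resolve_right hz, rfl⟩
    set V : Submodule ℝ X := Submodule.span ℝ (Set.range ![z, y]) with hV
    have hfr : Module.finrank ℝ V = 2 := by
      rw [hV, finrank_span_eq_card hli]; simp
    obtain ⟨s, hs⟩ := hX V hfr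
    have hzV : z ∈ V := Submodule.subset_span ⟨0, by simp⟩
    have hyV : y ∈ V := Submodule.subset_span ⟨1, by simp⟩
    let z' : V := ⟨z, hzV⟩
    let y' : V := ⟨y, hyV⟩
    -- homogeneous form
    have hhom : ∀ (v : V) (l : ℝ), 0 < l → (‖v‖ ≤ l ↔ ∀ φ ∈ s, φ v ≤ l) := by
      intro v l hl
      have h1 := hs (l⁻¹ • v)
      rw [norm_smul, norm_inv, Real.norm_of_nonneg hl.le, inv_mul_le_iff₀ hl, mul_one] at h1
      rw [h1]
      apply forall₂_congr
      intro φ _
      rw [map_smul, smul_eq_mul, inv_mul_le_iff₀ hl, mul_one]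
    have hne : s.Nonempty := by
      rw [Finset.nonempty_iff_ne_empty]
      intro h0
      subst h0
      have := (hhom z' (‖z‖/2) (by positivity)).2 (by simp)
      have h2 : ‖z'‖ = ‖z‖ := rfl
      rw [h2] at this
      linarith
    obtain ⟨φm, hφm, hmax⟩ := Finset.exists_max_image s (fun φ => toLex (φ z', φ y')) hne
    have hmaxnorm : ∀ v : V, v ≠ 0 → (∀ φ ∈ s, φ v ≤ φm v) → ‖v‖ = φm v := by
      intro v hv hmaxv
      have hvn : 0 < ‖v‖ := norm_pos_iff.2 hv
      apply le_antisymm
      · rcases lt_or_ge 0 (φm v) with hp | hp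
        · exact (hhom v _ hp).2 hmaxv
        · exfalso
          have := (hhom v (‖v‖/2) (by positivity)).2 (fun φ hφ => (hmaxv φ hφ).trans
            (hp.trans (by positivity)))
          linarith
      · exact (hhom v _ hvn).1 le_rfl φm hφm
    have hev : ∀ᶠ t in 𝓝[≥] (0:ℝ), ∀ φ ∈ s, φ (z' + t • y') ≤ φm (z' + t • y') := by
      rw [Filter.eventually_all_finset]
      intro φ hφ
      have h1 := hmax φ hφ
      rw [Prod.Lex.toLex_le_toLex] at h1
      rcases h1 with h1 | ⟨h1, h2⟩
      · have hcont : Continuous (fun t : ℝ => φm (z' + t • y') - φ (z' + t • y')) := by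
          simp only [map_add, map_smul, smul_eq_mul]
          fun_prop
        have h3 : ∀ᶠ t in 𝓝 (0:ℝ), 0 < φm (z' + t • y') - φ (z' + t • y') := by
          apply (hcont.tendsto 0).eventually
          apply lt_mem_nhds
          simp only [zero_smul, add_zero]
          simp only at h1
          linarith
        filter_upwards [nhdsWithin_le_nhds h3] with t ht
        linarith
      · filter_upwards [self_mem_nhdsWithin] with t ht
        have ht0 : (0:ℝ) ≤ t := ht
        simp only at h1 h2
        rw [map_add, map_add, map_smul, map_smul, h1, smul_eq_mul, smul_eq_mul]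
        nlinarith
    obtain ⟨ε, hε, hεs⟩ := mem_nhdsGE_iff_exists_Icc_subset.1 hev
    have hε0 : 0 < ε := hε
    have hval : ∀ t ∈ Icc (0:ℝ) ε, ‖z + t • y‖ = φm z' + t * φm y' := by
      intro t ht
      have h1 := hεs ht
      have h2 : z' + t • y' ≠ 0 := by
        intro h0
        have h3 := congrArg Subtype.val h0
        have h4 : z + t • y = 0 := h3
        have := (LinearIndependent.pair_iff.1 hli) 1 t (by rw [one_smul]; exact h4)
        exact one_ne_zero this.1
      have h3 := hmaxnorm _ h2 h1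
      rw [map_add, map_smul, smul_eq_mul] at h3
      exact h3
    refine ⟨φm y', ε, hε0, ?_⟩
    intro t ht
    have h0 := hval 0 ⟨le_refl _, hε0.le⟩
    rw [zero_smul, add_zero, zero_mul, add_zero] at h0
    rw [hval t ht, h0]

/-- The positively homogeneous extension of a map between spheres. -/
noncomputable def homExt (f : Metric.sphere (0:X) 1 → Metric.sphere (0:Y) 1) (x : X) : Y := by
  classical
  exact if h : x = 0 then 0 else
    ‖x‖ • (f ⟨‖x‖⁻¹ • x, by
      rw [mem_sphere_zero_iff_norm, norm_smul, norm_inv, norm_norm,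
        inv_mul_cancel₀ (norm_ne_zero_iff.2 h)]⟩ : Y)

lemma homExt_zero (f : Metric.sphere (0:X) 1 → Metric.sphere (0:Y) 1) : homExt f 0 = 0 := by
  simp [homExt]

lemma homExt_smul_sphere (f : Metric.sphere (0:X) 1 → Metric.sphere (0:Y) 1)
    (x : Metric.sphere (0:X) 1) {t : ℝ} (ht : 0 ≤ t) : homExt f (t • (x:X)) = t • (f x : Y) := by
  have hx : ‖(x:X)‖ = 1 := by simp
  rcases eq_or_lt_of_le ht with rfl | ht'
  · rw [zero_smul, zero_smul, homExt_zero]
  · have hx0 : (x:X) ≠ 0 := by
      intro h0; rw [h0, norm_zero] at hx; exact zero_ne_one hx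
    have h0 : t • (x:X) ≠ 0 := smul_ne_zero ht'.ne' hx0
    have hn : ‖t • (x:X)‖ = t := by rw [norm_smul, hx, Real.norm_of_nonneg ht, mul_one]
    unfold homExt
    rw [dif_neg h0]
    have e : (⟨‖t • (x:X)‖⁻¹ • (t • (x:X)), by
      rw [mem_sphere_zero_iff_norm, norm_smul, norm_inv, norm_norm,
        inv_mul_cancel₀ (norm_ne_zero_iff.2 h0)]⟩ : Metric.sphere (0:X) 1) = x := by
      ext
      simp only
      rw [hn, smul_smul, inv_mul_cancel₀ ht'.ne', one_smul]
    rw [e, hn]

lemma exists_sphere_rep (x : X) (hx : x ≠ 0) :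
    ∃ (t : ℝ) (u : Metric.sphere (0:X) 1), 0 < t ∧ t = ‖x‖ ∧ x = t • (u:X) := by
  have hn : ‖x‖ ≠ 0 := norm_ne_zero_iff.2 hx
  refine ⟨‖x‖, ⟨‖x‖⁻¹ • x, by
      rw [mem_sphere_zero_iff_norm, norm_smul, norm_inv, norm_norm,
        inv_mul_cancel₀ hn]⟩, norm_pos_iff.2 hx, rfl, ?_⟩
  simp only
  rw [smul_smul, mul_inv_cancel₀ hn, one_smul]

lemma homExt_leftInv (f : Metric.sphere (0:X) 1 → Metric.sphere (0:Y) 1)
    (g : Metric.sphere (0:Y) 1 → Metric.sphere (0:X) 1) (hgf : ∀ x, g (f x) = x) (x : X) :
    homExt g (homExt f x) = x := by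
  by_cases hx : x = 0
  · subst hx; rw [homExt_zero, homExt_zero]
  · obtain ⟨t, u, ht, -, rfl⟩ := exists_sphere_rep x hx
    rw [homExt_smul_sphere f u ht.le, homExt_smul_sphere g (f u) ht.le, hgf]

/-- From a surjective isometry of spheres to `SphIso`. -/
lemma exists_sphIso (f : Metric.sphere (0:X) 1 → Metric.sphere (0:Y) 1) (hf : Isometry f)
    (hs : Function.Surjective f) :
    ∃ F : X ≃ Y, SphIso F ∧ ∀ x : Metric.sphere (0:X) 1, F x = f x := by
  let e : Metric.sphere (0:X) 1 ≃ Metric.sphere (0:Y) 1 :=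
    Equiv.ofBijective f ⟨hf.injective, hs⟩
  let F : X ≃ Y :=
    { toFun := homExt f
      invFun := homExt e.symm
      left_inv := homExt_leftInv f e.symm (fun x => e.symm_apply_apply x)
      right_inv := homExt_leftInv e.symm f (fun x => e.apply_symm_apply x) }
  have hFs : ∀ x : Metric.sphere (0:X) 1, F x = f x := by
    intro x
    have := homExt_smul_sphere f x zero_le_one
    rw [one_smul, one_smul] at this
    exact this
  refine ⟨F, ⟨?_, ?_, ?_⟩, hFs⟩
  · intro t x ht
    show homExt f (t • x) = t • homExt f x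
    by_cases hx : x = 0
    · subst hx; rw [smul_zero, homExt_zero, smul_zero]
    · obtain ⟨r, u, hr, -, rfl⟩ := exists_sphere_rep x hx
      rw [smul_smul, homExt_smul_sphere f u hr.le, homExt_smul_sphere f u (by positivity),
        smul_smul]
  · intro x
    show ‖homExt f x‖ = ‖x‖
    by_cases hx : x = 0
    · subst hx; rw [homExt_zero, norm_zero, norm_zero]
    · obtain ⟨r, u, hr, -, rfl⟩ := exists_sphere_rep x hx
      have h1 : ‖(u:X)‖ = 1 := by simp
      have h2 : ‖(f u:Y)‖ = 1 := by simp
      rw [homExt_smul_sphere f u hr.le, norm_smul, norm_smul, h1, h2]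
  · intro x y hx hy
    have hx' : x ∈ Metric.sphere (0:X) 1 := by rwa [mem_sphere_zero_iff_norm]
    have hy' : y ∈ Metric.sphere (0:X) 1 := by rwa [mem_sphere_zero_iff_norm]
    have h1 := hFs ⟨x, hx'⟩
    have h2 := hFs ⟨y, hy'⟩
    simp only at h1 h2
    rw [h1, h2, ← dist_eq_norm, ← dist_eq_norm, ← Subtype.dist_eq, hf.dist_eq, Subtype.dist_eq]

/-- An additive `SphIso` is a linear isometry equivalence. -/
lemma exists_linearIsometry {F : X ≃ Y} (h : SphIso F) (hadd : ∀ x y, F (x + y) = F x + F y) :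
    ∃ T : X ≃ₗᵢ[ℝ] Y, ∀ x, T x = F x := by
  have hneg : ∀ x, F (-x) = - F x := by
    intro x
    have := hadd x (-x)
    rw [add_neg_cancel, h.map_zero] at this
    exact (neg_eq_of_add_eq_zero_right this.symm).symm
  have hsm : ∀ (a : ℝ) (x : X), F (a • x) = a • F x := by
    intro a x
    rcases le_total 0 a with ha | ha
    · exact h.smul a x ha
    · have : a • x = (-a) • (-x) := by rw [smul_neg, neg_smul, neg_neg]
      rw [this, h.smul _ _ (by linarith), hneg, smul_neg, neg_smul, neg_neg]
  let T : X ≃ₗᵢ[ℝ] Y :=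
    { toFun := F
      invFun := F.symm
      left_inv := F.left_inv
      right_inv := F.right_inv
      map_add' := hadd
      map_smul' := hsm
      norm_map' := h.norm }
  exact ⟨T, fun x => rfl⟩

/-- Banach spaces with polygonal two-dimensional sections have the Mazur-Ulam property. -/
theorem mazurUlam_of_polygonal [CompleteSpace X] (hX : PolygonalSections X)
    (f : Metric.sphere (0:X) 1 → Metric.sphere (0:Y) 1) (hf : Isometry f)
    (hs : Function.Surjective f) :
    ∃ T : X ≃ₗᵢ[ℝ] Y, ∀ x : Metric.sphere (0:X) 1, T x = f x := by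
  obtain ⟨F, hF, hFf⟩ := exists_sphIso f hf hs
  obtain ⟨T, hT⟩ := exists_linearIsometry hF (additive_of_kprop hF (kprop_of_polygonal hX))
  exact ⟨T, fun x => by rw [hT, hFf]⟩

end Vale.Agent.H11.Tingley
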